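import Crest.Agent.R271.H.Meas

/-! # Row 271, block H1: the Bochner inequality for exact test forms (owner helper12)

All rules for `d, db, dz` are in `H/Calc.lean`, integration by parts in `H/Meas.lean`. -/

set_option autoImplicit false
set_option linter.unusedSectionVars false
set_option linter.unusedVariables false

open MeasureTheory Filter Topology Set
open scoped ENNReal ContDiff

noncomputable section

namespace Crest.Agent.R271.Dom

variable {n : ℕ} {M : Type} [TopologicalSpace M] [MeasurableSpace M] {D : Dom n M}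

/-- coordinate vectors -/
abbrev ee (j : Fin n) : E n := Pi.single j 1

theorem clm_sum (L : E n →L[ℝ] ℂ) (ξ : E n) :
    L ξ = ∑ k, ((ξ k).re * L (ee k) + (ξ k).im * L (Complex.I • ee k)) := by
  have : ξ = ∑ k, ((ξ k).re • ee k + (ξ k).im • Complex.I • ee k) := by
    funext j
    simp [Finset.sum_apply, Pi.single_apply, Finset.sum_add_distrib]
  conv_lhs => rw [this]
  simp [map_sum]

/-- `db` is conjugate linear in the vector (`ξ = ∑ (re ξ_k • e_k + im ξ_k • I • e_k)`) -/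
theorem db_sum (f : M → ℂ) (y : M) (ξ : E n) :
    D.db f y ξ = ∑ k, D.db f y (ee k) * (starRingEnd ℂ) (ξ k) := by
  simp only [db]
  rw [clm_sum _ ξ, clm_sum _ (Complex.I • ξ), Finset.mul_sum, ← Finset.sum_add_distrib, Finset.sum_div]
  refine Finset.sum_congr rfl fun k _ => ?_
  conv_rhs => rw [← Complex.re_add_im (ξ k)]
  simp only [Pi.smul_apply, smul_eq_mul, Complex.I_mul_re, Complex.I_mul_im, map_add, map_mul,
    Complex.conj_ofReal, Complex.conj_I, Complex.ofReal_neg]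
  linear_combination ((ξ k).im * D.d f y (Complex.I • ee k) / 2) * Complex.I_mul_I

theorem dz_sum (f : M → ℂ) (y : M) (ξ : E n) : D.dz f y ξ = ∑ k, D.dz f y (ee k) * ξ k := by
  simp only [dz]
  rw [clm_sum _ ξ, clm_sum _ (Complex.I • ξ), Finset.mul_sum, ← Finset.sum_sub_distrib, Finset.sum_div]
  refine Finset.sum_congr rfl fun k _ => ?_
  conv_rhs => rw [← Complex.re_add_im (ξ k)]
  simp only [Pi.smul_apply, smul_eq_mul, Complex.I_mul_re, Complex.I_mul_im, Complex.ofReal_neg]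
  linear_combination ((ξ k).im * D.d f y (Complex.I • ee k) / 2) * Complex.I_mul_I

theorem d_db {f : M → ℂ} (hf : D.Sm f) (y : M) (ξ η : E n) :
    D.d (fun x => D.db f x ξ) y η = (D.d (fun x => D.d f x ξ) y η +
      Complex.I * D.d (fun x => D.d f x (Complex.I • ξ)) y η) / 2 := by
  have s1 := hf.d_apply ξ
  have s2 := hf.d_apply (Complex.I • ξ)
  have s3 := (sm_const Complex.I).mul s2
  simp only [db, div_eq_mul_inv]
  rw [d_mul ((s1.add s3).dif y) (dif_const _), d_add (s1.dif y) (s3.dif y), add_apply,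
    d_mul (dif_const _) (s2.dif y)]
  simp

theorem d_dz {f : M → ℂ} (hf : D.Sm f) (y : M) (ξ η : E n) :
    D.d (fun x => D.dz f x ξ) y η = (D.d (fun x => D.d f x ξ) y η -
      Complex.I * D.d (fun x => D.d f x (Complex.I • ξ)) y η) / 2 := by
  have s1 := hf.d_apply ξ
  have s2 := hf.d_apply (Complex.I • ξ)
  have s3 := (sm_const Complex.I).mul s2
  simp only [dz, div_eq_mul_inv]
  rw [d_mul ((s1.sub s3).dif y) (dif_const _), d_sub (s1.dif y) (s3.dif y), sub_apply,
    d_mul (dif_const _) (s2.dif y)]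
  simp

/-- `dd_symm` -/
theorem db_db {f : M → ℂ} (hf : D.Sm f) (y : M) (ξ η : E n) :
    D.db (fun x => D.db f x ξ) y η = D.db (fun x => D.db f x η) y ξ := by
  rw [db, db, d_db hf, d_db hf, d_db hf, d_db hf, dd_symm (hf.cd2 y) ξ η, dd_symm (hf.cd2 y) ξ (Complex.I • η),
    dd_symm (hf.cd2 y) (Complex.I • ξ) η, dd_symm (hf.cd2 y) (Complex.I • ξ) (Complex.I • η)]
  ring

theorem db_dz {f : M → ℂ} (hf : D.Sm f) (y : M) (ξ η : E n) :
    D.db (fun x => D.dz f x ξ) y η = D.dz (fun x => D.db f x η) y ξ := by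
  rw [db, dz, d_db hf, d_db hf, d_dz hf, d_dz hf, dd_symm (hf.cd2 y) ξ η, dd_symm (hf.cd2 y) ξ (Complex.I • η),
    dd_symm (hf.cd2 y) (Complex.I • ξ) η, dd_symm (hf.cd2 y) (Complex.I • ξ) (Complex.I • η)]
  ring

/-- `levi φ y ξ = db (dz φ · ξ) y ξ` by `dd_symm`, then `db_sum`, `dz_sum` -/
theorem levi_sum {φ : M → ℝ} (hφ : D.Sm φ) (y : M) (ξ : E n) :
    (D.levi φ y ξ : ℂ) = ∑ j, ∑ k, D.db (fun x => D.dz (fun x => (φ x : ℂ)) x (ee j)) y (ee k) *
      (ξ j * (starRingEnd ℂ) (ξ k)) := by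
  have hc := hφ.ofReal
  have e1 : (D.levi φ y ξ : ℂ) = D.db (fun x => D.dz (fun x => (φ x : ℂ)) x ξ) y ξ := by
    rw [db, d_dz hc, d_dz hc, dd_symm (hc.cd2 y) ξ (Complex.I • ξ), levi]
    simp only [d_ofReal (hφ.dif _), d_ofReal ((hφ.d_apply _).dif _)]
    push_cast
    linear_combination (D.d (fun x => D.d φ x (Complex.I • ξ)) y (Complex.I • ξ) / 4 : ℂ) * Complex.I_mul_I
  rw [e1, db_dz hc, dz_sum]
  refine Finset.sum_congr rfl fun j _ => ?_
  rw [← db_dz hc, db_sum, Finset.sum_mul]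
  exact Finset.sum_congr rfl fun k _ => by ring

variable (D) in
/-- `δ_ξ w = ∂_ξ w - w ∂_ξ φ` -/
def del (φ : M → ℝ) (w : M → ℂ) (y : M) (ξ : E n) : ℂ :=
  D.dz w y ξ - w y * D.dz (fun x => (φ x : ℂ)) y ξ

theorem Sm.del {φ : M → ℝ} (hφ : D.Sm φ) {w : M → ℂ} (hw : D.Sm w) (ξ : E n) :
    D.Sm fun x => D.del φ w x ξ := (hw.dz ξ).sub (hw.mul (hφ.ofReal.dz ξ))

/-- `∂_ξ (e^{-φ} w) = e^{-φ} δ_ξ w` -/
theorem dz_exp_mul {φ : M → ℝ} (hφ : D.Sm φ) {w : M → ℂ} (hw : D.Sm w) (y : M) (ξ : E n) :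
    D.dz (fun x => (Real.exp (-φ x) : ℂ) * w x) y ξ = (Real.exp (-φ y) : ℂ) * D.del φ w y ξ := by
  have s1 := hφ.neg.exp
  rw [dz_mul (s1.ofReal.dif y) (hw.dif y), del]
  simp only [dz, d_ofReal (s1.dif y), d_ofReal (hφ.dif y), d_exp (hφ.neg.dif y), d_neg, neg_apply]
  push_cast
  ring

variable [T2Space M] [BorelSpace M]

omit [T2Space M] [BorelSpace M] in
theorem db_exp_mul {φ : M → ℝ} (hφ : D.Sm φ) {w : M → ℂ} (hw : D.Sm w) (y : M) (ξ : E n) :
    D.db (fun x => (Real.exp (-φ x) : ℂ) * w x) y ξ =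
      (Real.exp (-φ y) : ℂ) * (D.db w y ξ - w y * D.db (fun x => (φ x : ℂ)) y ξ) := by
  have s1 := hφ.neg.exp
  rw [db_mul (s1.ofReal.dif y) (hw.dif y)]
  simp only [db, d_ofReal (s1.dif y), d_ofReal (hφ.dif y), d_exp (hφ.neg.dif y), d_neg, neg_apply]
  push_cast
  ring

omit [T2Space M] [BorelSpace M] in
theorem hasCompactSupport_db {f : M → ℂ} (h : HasCompactSupport f) (ξ : E n) :
    HasCompactSupport fun x => D.db f x ξ :=
  h.mono' fun x hx => by
    by_contra k
    exact hx (by simp [db, d_zero_of_notMem k])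

omit [T2Space M] [BorelSpace M] in
theorem hasCompactSupport_dz {f : M → ℂ} (h : HasCompactSupport f) (ξ : E n) :
    HasCompactSupport fun x => D.dz f x ξ :=
  h.mono' fun x hx => by
    by_contra k
    exact hx (by simp [dz, d_zero_of_notMem k])

omit [T2Space M] [BorelSpace M] in
theorem hasCompactSupport_del (φ : M → ℝ) {f : M → ℂ} (h : HasCompactSupport f) (ξ : E n) :
    HasCompactSupport fun x => D.del φ f x ξ :=
  h.mono' fun x hx => by
    by_contra k
    exact hx (by simp [del, dz, d_zero_of_notMem k, image_eq_zero_of_notMem_tsupport k])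

/-- the integrand is
`∂̄_η (e^{-φ} δ_ξ a conj b) - ∂_ξ (e^{-φ} ∂̄_η a conj b)` (product rules, `db_conj`, `dz_conj`, `db_dz`);
`integral_db`, `integral_dz` -/
theorem boch_pair {φ : M → ℝ} (hφ : D.Sm φ) {a b : M → ℂ} (ha : D.Sm a) (hb : D.Sm b)
    (hc : HasCompactSupport b) (ξ η : E n) :
    ∫ y, (Real.exp (-φ y) : ℂ) * (D.del φ a y ξ * (starRingEnd ℂ) (D.del φ b y η) -
      D.db (fun x => D.dz (fun x => (φ x : ℂ)) x ξ) y η * (a y * (starRingEnd ℂ) (b y)) -
      D.db a y η * (starRingEnd ℂ) (D.db b y ξ)) ∂D.μ = 0 := by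
  have hc' : HasCompactSupport fun x => (starRingEnd ℂ) (b x) := hc.comp_left (g := starRingEnd ℂ) (map_zero _)
  have se := hφ.neg.exp.ofReal
  have s1 := (hφ.del ha ξ).mul hb.conj
  have s2 := (ha.db η).mul hb.conj
  have c1 : HasCompactSupport fun x => (Real.exp (-φ x) : ℂ) * (D.del φ a x ξ * (starRingEnd ℂ) (b x)) :=
    hc'.mul_left.mul_left
  have c2 : HasCompactSupport fun x => (Real.exp (-φ x) : ℂ) * (D.db a x η * (starRingEnd ℂ) (b x)) :=
    hc'.mul_left.mul_left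
  have i1 := integral_db (se.mul s1) c1 η
  have i2 := integral_dz (se.mul s2) c2 ξ
  have := integral_sub (integrable_of_cont (D := D) ((se.mul s1).db η).continuous (hasCompactSupport_db c1 η))
    (integrable_of_cont ((se.mul s2).dz ξ).continuous (hasCompactSupport_dz c2 ξ))
  rw [i1, i2, sub_zero] at this
  rw [← this]
  refine integral_congr_ae (Eventually.of_forall fun y => ?_)
  have hφc := hφ.ofReal
  have r1 : D.db (fun x => D.del φ a x ξ) y η = D.dz (fun x => D.db a x η) y ξ -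
      (a y * D.db (fun x => D.dz (fun x => (φ x : ℂ)) x ξ) y η +
        D.db a y η * D.dz (fun x => (φ x : ℂ)) y ξ) := by
    simp only [del]
    rw [db_sub ((ha.dz ξ).dif y) ((ha.mul (hφc.dz ξ)).dif y), db_mul (ha.dif y) ((hφc.dz ξ).dif y), db_dz ha]
  have r2 : (starRingEnd ℂ) (D.dz (fun x => (φ x : ℂ)) y η) = D.db (fun x => (φ x : ℂ)) y η := by
    rw [← db_conj (hφc.dif y)]
    simp only [Complex.conj_ofReal]
  simp only []
  rw [db_exp_mul hφ s1, dz_exp_mul hφ s2, db_mul ((hφ.del ha ξ).dif y) (hb.conj.dif y), r1, db_conj (hb.dif y)]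
  simp only [del]
  rw [dz_mul ((ha.db η).dif y) (hb.conj.dif y), dz_conj (hb.dif y), map_sub, map_mul, r2]
  ring

/-- sum `boch_pair` over `j, k` for `a = ∂̄_j ψ`, `b = ∂̄_k ψ`; `levi_sum`, `db_db` -/
theorem bochner {φ : M → ℝ} (hφ : D.Sm φ) {ψ : M → ℂ} (hψ : D.Sm ψ) (hc : HasCompactSupport ψ) :
    ∫ y, D.levi φ y (fun j => D.db ψ y (ee j)) * Real.exp (-φ y) ∂D.μ ≤
      ∫ y, ‖∑ j, D.del φ (fun x => D.db ψ x (ee j)) y (ee j)‖ ^ 2 * Real.exp (-φ y) ∂D.μ := by
  set α : Fin n → M → ℂ := fun j x => D.db ψ x (ee j) with hα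
  have sα : ∀ j, D.Sm (α j) := fun j => hψ.db _
  have cα : ∀ j, HasCompactSupport (α j) := fun j => hasCompactSupport_db hc _
  set T : Fin n → Fin n → M → ℂ := fun j k y => (Real.exp (-φ y) : ℂ) *
    (D.del φ (α j) y (ee j) * (starRingEnd ℂ) (D.del φ (α k) y (ee k)) -
      D.db (fun x => D.dz (fun x => (φ x : ℂ)) x (ee j)) y (ee k) * (α j y * (starRingEnd ℂ) (α k y)) -
      D.db (α j) y (ee k) * (starRingEnd ℂ) (D.db (α k) y (ee j))) with hT
  have z : ∀ y, y ∉ tsupport ψ → ∀ j, (α j =ᶠ[𝓝 y] fun _ => 0) := fun y hy j =>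
    (d_congr_ev (D := D) (notMem_tsupport_iff_eventuallyEq.1 hy)).mono fun x hx => by
      have : D.d ψ x = 0 := hx.trans (d_const 0)
      simp [hα, db, this]
  have z' : ∀ y, y ∉ tsupport ψ → ∀ j, α j y = 0 ∧ D.d (α j) y = 0 := fun y hy j =>
    ⟨(z y hy j).self_of_nhds, (d_congr (z y hy j)).trans (d_const 0)⟩
  have iT : ∀ j k, Integrable (T j k) D.μ := fun j k => by
    refine integrable_of_cont (hφ.neg.exp.ofReal.mul ((((hφ.del (sα j) _).mul (hφ.del (sα k) _).conj).sub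
      (((hφ.ofReal.dz _).db _).mul ((sα j).mul (sα k).conj))).sub
      (((sα j).db _).mul ((sα k).db _).conj))).continuous (hc.mono' fun y hy => ?_)
    by_contra k'
    exact hy (by simp [hT, del, dz, db, (z' y k' j).1, (z' y k' j).2])
  have s0 : ∫ y, ∑ j, ∑ k, T j k y ∂D.μ = 0 := by
    rw [integral_finsetSum _ fun j _ => integrable_finsetSum _ fun k _ => iT j k]
    refine Finset.sum_eq_zero fun j _ => ?_
    rw [integral_finsetSum _ fun k _ => iT j k]
    exact Finset.sum_eq_zero fun k _ => boch_pair hφ (sα j) (sα k) (cα k) _ _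
  have pt : ∀ y, ∑ j, ∑ k, T j k y = ((‖∑ j, D.del φ (α j) y (ee j)‖ ^ 2 * Real.exp (-φ y) -
      D.levi φ y (fun j => α j y) * Real.exp (-φ y) -
      (∑ j, ∑ k, ‖D.db (α j) y (ee k)‖ ^ 2) * Real.exp (-φ y) : ℝ) : ℂ) := fun y => by
    have sy : ∀ j k, D.db (α k) y (ee j) = D.db (α j) y (ee k) := fun j k => db_db hψ y _ _
    simp only [Complex.ofReal_sub, Complex.ofReal_mul, Complex.ofReal_sum, Complex.ofReal_pow, levi_sum hφ,
      ← Complex.mul_conj', map_sum, Finset.sum_mul_sum, hT]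
    simp only [Finset.sum_mul, ← Finset.sum_sub_distrib]
    refine Finset.sum_congr rfl fun j _ => Finset.sum_congr rfl fun k _ => ?_
    rw [sy j k]
    ring
  simp only [pt] at s0
  rw [integral_complex_ofReal, Complex.ofReal_eq_zero] at s0
  have ce := hφ.neg.exp.continuous
  have i1 : Integrable (fun y => ‖∑ j, D.del φ (α j) y (ee j)‖ ^ 2 * Real.exp (-φ y)) D.μ := by
    refine integrable_of_cont (((Sm.sum fun j _ => hφ.del (sα j) _).continuous.norm.pow 2).mul ce)
      (hc.mono' fun y hy => ?_)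
    by_contra k'
    exact hy (by simp [del, dz, (z' y k' _).1, (z' y k' _).2])
  have i2 : Integrable (fun y => D.levi φ y (fun j => α j y) * Real.exp (-φ y)) D.μ := by
    refine integrable_of_cont (((levi_cont hφ).comp (continuous_id.prodMk
      (continuous_pi fun j => (sα j).continuous))).mul ce) (hc.mono' fun y hy => ?_)
    by_contra k'
    have : D.levi φ y 0 = 0 := by simpa using levi_smul hφ y 0 0
    replace : D.levi φ y (fun _ => 0) = 0 := this
    exact hy (by simp [(z' y k' _).1, this])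
  have i3 : Integrable (fun y => (∑ j, ∑ k, ‖D.db (α j) y (ee k)‖ ^ 2) * Real.exp (-φ y)) D.μ := by
    refine integrable_of_cont ((continuous_finsetSum _ fun j _ => continuous_finsetSum _ fun k _ =>
      ((sα j).db _).continuous.norm.pow 2).mul ce) (hc.mono' fun y hy => ?_)
    by_contra k'
    exact hy (by simp [db, (z' y k' _).2])
  rw [integral_sub (by exact i1.sub i2) i3, integral_sub i1 i2] at s0
  have p : 0 ≤ ∫ y, (∑ j, ∑ k, ‖D.db (α j) y (ee k)‖ ^ 2) * Real.exp (-φ y) ∂D.μ :=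
    integral_nonneg fun y => by positivity
  linarith

end Crest.Agent.R271.Dom
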