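import Crest.Agent.R271.Defs

/-! # Row 271, block H: calculus on a Riemann domain (owner helper12)

`D.CD k f y` : `f` is `C^k` at `y`; `D.Dif f y` : differentiable at `y`; `D.IsCh e` : `e` is a chart. -/

set_option autoImplicit false
set_option linter.unusedSectionVars false

open MeasureTheory Filter Topology Set
open scoped ENNReal ContDiff

noncomputable section

namespace Crest.Agent.R271.Dom

variable {n : ℕ} {M : Type} [TopologicalSpace M] [MeasurableSpace M] {D : Dom n M}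
  {F G H : Type} [NormedAddCommGroup F] [NormedSpace ℝ F] [NormedAddCommGroup G] [NormedSpace ℝ G]
  [NormedAddCommGroup H] [NormedSpace ℝ H]

/-! ### charts -/

variable (D) in
/-- `e` is a chart of `D` -/
def IsCh (e : OpenPartialHomeomorph M (E n)) : Prop := ∀ y ∈ e.source, e y = D.p y

variable (D) in
theorem ch_source (y : M) : y ∈ (D.ch y).source := (D.loc y).choose_spec.1

variable (D) in
theorem ch_eq (y : M) : ⇑(D.ch y) = D.p := (D.loc y).choose_spec.2.symm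

variable (D) in
theorem isCh (y : M) : D.IsCh (D.ch y) := fun _ _ => by rw [ch_eq]

variable (D) in
theorem p_cont : Continuous D.p := D.loc.continuous

theorem IsCh.target {e : OpenPartialHomeomorph M (E n)} (he : D.IsCh e) {y : M} (hy : y ∈ e.source) :
    D.p y ∈ e.target := he y hy ▸ e.map_source hy

theorem IsCh.symm_p {e : OpenPartialHomeomorph M (E n)} (he : D.IsCh e) {y : M} (hy : y ∈ e.source) :
    e.symm (D.p y) = y := he y hy ▸ e.left_inv hy

theorem IsCh.p_symm {e : OpenPartialHomeomorph M (E n)} (he : D.IsCh e) {z : E n} (hz : z ∈ e.target) :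
    D.p (e.symm z) = z := by rw [← he _ (e.map_target hz), e.right_inv hz]

theorem IsCh.tendsto {e : OpenPartialHomeomorph M (E n)} (he : D.IsCh e) {y : M} (hy : y ∈ e.source) :
    Tendsto e.symm (𝓝 (D.p y)) (𝓝 y) := he y hy ▸ e.tendsto_symm hy

theorem IsCh.symm_eq {e e' : OpenPartialHomeomorph M (E n)} (he : D.IsCh e) (he' : D.IsCh e') {y : M}
    (hy : y ∈ e.source) (hy' : y ∈ e'.source) : e.symm =ᶠ[𝓝 (D.p y)] e'.symm := by
  filter_upwards [e.open_target.mem_nhds (he.target hy), he.tendsto hy (e'.open_source.mem_nhds hy')]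
    with z h1 h2
  rw [← he'.symm_p h2, he.p_symm h1]

theorem IsCh.comp_eq {α : Type} {e : OpenPartialHomeomorph M (E n)} (he : D.IsCh e) {y : M}
    (hy : y ∈ e.source) (f : M → α) : f ∘ (D.ch y).symm =ᶠ[𝓝 (D.p y)] f ∘ e.symm :=
  ((D.isCh y).symm_eq he (D.ch_source y) hy).fun_comp f

variable (D) in
theorem ch_target (y : M) : D.p y ∈ (D.ch y).target := (D.isCh y).target (D.ch_source y)

variable (D) in
@[simp] theorem ch_symm_p (y : M) : (D.ch y).symm (D.p y) = y := (D.isCh y).symm_p (D.ch_source y)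

variable (D) in
theorem ch_tendsto (y : M) : Tendsto (D.ch y).symm (𝓝 (D.p y)) (𝓝 y) := (D.isCh y).tendsto (D.ch_source y)

variable (D) in
theorem ev_comp {α : Type} {f g : M → α} {y : M} (h : f =ᶠ[𝓝 y] g) :
    f ∘ (D.ch y).symm =ᶠ[𝓝 (D.p y)] g ∘ (D.ch y).symm := D.ch_tendsto y h

theorem IsCh.d_eq {e : OpenPartialHomeomorph M (E n)} (he : D.IsCh e) {y : M} (hy : y ∈ e.source)
    (f : M → F) : D.d f y = fderiv ℝ (f ∘ e.symm) (D.p y) := (he.comp_eq hy f).fderiv_eq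

theorem IsCh.d_symm {e : OpenPartialHomeomorph M (E n)} (he : D.IsCh e) {z : E n} (hz : z ∈ e.target)
    (f : M → F) : D.d f (e.symm z) = fderiv ℝ (f ∘ e.symm) z := by
  rw [he.d_eq (e.map_target hz), he.p_symm hz]

variable (D) in
theorem d_ev (f : M → F) (y : M) :
    D.d f ∘ (D.ch y).symm =ᶠ[𝓝 (D.p y)] fderiv ℝ (f ∘ (D.ch y).symm) := by
  filter_upwards [(D.ch y).open_target.mem_nhds (D.ch_target y)] with z hz
  exact (D.isCh y).d_symm hz f

/-! ### differentiability classes -/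

variable (D) in
/-- `C^k` at a point -/
def CD (k : WithTop ℕ∞) (f : M → F) (y : M) : Prop := ContDiffAt ℝ k (f ∘ (D.ch y).symm) (D.p y)

variable (D) in
/-- differentiable at a point -/
def Dif (f : M → F) (y : M) : Prop := DifferentiableAt ℝ (f ∘ (D.ch y).symm) (D.p y)

variable {k : WithTop ℕ∞} {y : M}

theorem IsCh.cd_iff {e : OpenPartialHomeomorph M (E n)} (he : D.IsCh e) (hy : y ∈ e.source) {f : M → F} :
    D.CD k f y ↔ ContDiffAt ℝ k (f ∘ e.symm) (D.p y) :=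
  ⟨fun h => h.congr_of_eventuallyEq (he.comp_eq hy f).symm, fun h => h.congr_of_eventuallyEq (he.comp_eq hy f)⟩

theorem IsCh.dif_iff {e : OpenPartialHomeomorph M (E n)} (he : D.IsCh e) (hy : y ∈ e.source) {f : M → F} :
    D.Dif f y ↔ DifferentiableAt ℝ (f ∘ e.symm) (D.p y) := (he.comp_eq hy f).differentiableAt_iff

theorem IsCh.contDiffOn {e : OpenPartialHomeomorph M (E n)} (he : D.IsCh e) {f : M → F} (hf : D.Sm f) :
    ContDiffOn ℝ ∞ (f ∘ e.symm) e.target := fun z hz => by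
  have := (he.cd_iff (e.map_target hz)).1 (hf _)
  rw [he.p_symm hz] at this
  exact this.contDiffWithinAt

theorem Sm.cd {f : M → F} (h : D.Sm f) (y : M) : D.CD ∞ f y := h y

theorem CD.of_le {f : M → F} {l : WithTop ℕ∞} (h : D.CD k f y) (hl : l ≤ k) : D.CD l f y :=
  ContDiffAt.of_le h hl

theorem CD.dif {f : M → F} (h : D.CD k f y) (hk : k ≠ 0) : D.Dif f y := h.differentiableAt hk

theorem Sm.dif {f : M → F} (h : D.Sm f) (y : M) : D.Dif f y := (h y).differentiableAt (by simp)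

theorem CD.congr {f g : M → F} (h : D.CD k f y) (e : g =ᶠ[𝓝 y] f) : D.CD k g y :=
  h.congr_of_eventuallyEq (D.ev_comp e)

theorem Dif.congr {f g : M → F} (h : D.Dif f y) (e : g =ᶠ[𝓝 y] f) : D.Dif g y :=
  h.congr_of_eventuallyEq (D.ev_comp e)

theorem contAt_of_comp {α : Type} [TopologicalSpace α] {f : M → α}
    (h : ContinuousAt (f ∘ (D.ch y).symm) (D.p y)) : ContinuousAt f y := by
  refine (h.comp D.p_cont.continuousAt).congr ?_
  filter_upwards [(D.ch y).open_source.mem_nhds (D.ch_source y)] with x hx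
  simp [(D.isCh y).symm_p hx]

theorem Dif.continuousAt {f : M → F} (h : D.Dif f y) : ContinuousAt f y :=
  contAt_of_comp (DifferentiableAt.continuousAt h)

theorem CD.continuousAt {f : M → F} (h : D.CD k f y) : ContinuousAt f y :=
  contAt_of_comp (ContDiffAt.continuousAt h)

theorem Sm.continuous {f : M → F} (h : D.Sm f) : Continuous f :=
  continuous_iff_continuousAt.2 fun y => (h.cd y).continuousAt

theorem CD.eventually {f : M → F} (h : D.CD k f y) (hk : k ≠ ((⊤ : ℕ∞) : WithTop ℕ∞)) : ∀ᶠ x in 𝓝 y, D.CD k f x := by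
  filter_upwards [D.p_cont.continuousAt (ContDiffAt.eventually h hk),
    (D.ch y).open_source.mem_nhds (D.ch_source y)] with x h1 h2
  exact ((D.isCh y).cd_iff h2).2 h1

theorem cd_const (c : F) : D.CD k (fun _ => c) y := contDiffAt_const

theorem cd_p : D.CD k D.p y := by
  refine contDiffAt_id.congr_of_eventuallyEq ?_
  filter_upwards [(D.ch y).open_target.mem_nhds (D.ch_target y)] with z hz
  exact (D.isCh y).p_symm hz

theorem CD.comp {f : M → F} {Φ : F → G} (hΦ : ContDiffAt ℝ k Φ (f y)) (h : D.CD k f y) :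
    D.CD k (fun x => Φ (f x)) y :=
  ContDiffAt.comp (g := Φ) (D.p y) (by simpa using hΦ) h

theorem CD.prodMk {f : M → F} {g : M → G} (h : D.CD k f y) (h' : D.CD k g y) :
    D.CD k (fun x => (f x, g x)) y := ContDiffAt.prodMk h h'

theorem CD.add {f g : M → F} (h : D.CD k f y) (h' : D.CD k g y) : D.CD k (fun x => f x + g x) y :=
  ContDiffAt.add h h'

theorem CD.sub {f g : M → F} (h : D.CD k f y) (h' : D.CD k g y) : D.CD k (fun x => f x - g x) y :=
  ContDiffAt.sub h h'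

theorem CD.neg {f : M → F} (h : D.CD k f y) : D.CD k (fun x => -f x) y := ContDiffAt.neg h

theorem CD.smul {c : M → ℝ} {f : M → F} (h : D.CD k c y) (h' : D.CD k f y) :
    D.CD k (fun x => c x • f x) y := ContDiffAt.smul h h'

theorem CD.mul {𝔸 : Type} [NormedRing 𝔸] [NormedAlgebra ℝ 𝔸] {f g : M → 𝔸} (h : D.CD k f y)
    (h' : D.CD k g y) : D.CD k (fun x => f x * g x) y := ContDiffAt.mul h h'

theorem CD.sum {ι : Type} {s : Finset ι} {f : ι → M → F} (h : ∀ i ∈ s, D.CD k (f i) y) :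
    D.CD k (fun x => ∑ i ∈ s, f i x) y := ContDiffAt.sum (f := fun i => f i ∘ (D.ch y).symm) h

theorem CD.clm_apply {f : M → F →L[ℝ] G} {g : M → F} (h : D.CD k f y) (h' : D.CD k g y) :
    D.CD k (fun x => f x (g x)) y := ContDiffAt.clm_apply h h'

theorem CD.d {f : M → F} {l : WithTop ℕ∞} (h : D.CD k f y) (hl : l + 1 ≤ k) : D.CD l (D.d f) y :=
  (ContDiffAt.fderiv_right h hl).congr_of_eventuallyEq (D.d_ev f y)

theorem CD.d_apply {f : M → F} {l : WithTop ℕ∞} (h : D.CD k f y) (hl : l + 1 ≤ k) (ξ : E n) :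
    D.CD l (fun x => D.d f x ξ) y := (h.d hl).clm_apply (cd_const ξ)

theorem sm_const (c : F) : D.Sm fun _ => c := fun _ => cd_const c

theorem sm_p : D.Sm D.p := fun _ => cd_p

theorem Sm.comp {f : M → F} {Φ : F → G} (hΦ : ContDiff ℝ ∞ Φ) (h : D.Sm f) : D.Sm fun x => Φ (f x) :=
  fun y => CD.comp hΦ.contDiffAt (h y)

theorem Sm.comp' {f : M → F} {Φ : F → G} (hΦ : ∀ y, ContDiffAt ℝ ∞ Φ (f y)) (h : D.Sm f) :
    D.Sm fun x => Φ (f x) := fun y => CD.comp (hΦ y) (h y)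

theorem Sm.prodMk {f : M → F} {g : M → G} (h : D.Sm f) (h' : D.Sm g) : D.Sm fun x => (f x, g x) :=
  fun y => (h.cd y).prodMk (h' y)

theorem Sm.add {f g : M → F} (h : D.Sm f) (h' : D.Sm g) : D.Sm fun x => f x + g x :=
  fun y => (h.cd y).add (h' y)

theorem Sm.sub {f g : M → F} (h : D.Sm f) (h' : D.Sm g) : D.Sm fun x => f x - g x :=
  fun y => (h.cd y).sub (h' y)

theorem Sm.neg {f : M → F} (h : D.Sm f) : D.Sm fun x => -f x := fun y => (h.cd y).neg

theorem Sm.smul {c : M → ℝ} {f : M → F} (h : D.Sm c) (h' : D.Sm f) : D.Sm fun x => c x • f x :=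
  fun y => (h.cd y).smul (h' y)

theorem Sm.mul {𝔸 : Type} [NormedRing 𝔸] [NormedAlgebra ℝ 𝔸] {f g : M → 𝔸} (h : D.Sm f) (h' : D.Sm g) :
    D.Sm fun x => f x * g x := fun y => (h.cd y).mul (h' y)

theorem Sm.sum {ι : Type} {s : Finset ι} {f : ι → M → F} (h : ∀ i ∈ s, D.Sm (f i)) :
    D.Sm fun x => ∑ i ∈ s, f i x := fun y => CD.sum fun i hi => h i hi y

theorem Sm.clm_apply {f : M → F →L[ℝ] G} {g : M → F} (h : D.Sm f) (h' : D.Sm g) :
    D.Sm fun x => f x (g x) := fun y => (h.cd y).clm_apply (h' y)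

theorem Sm.clm {f : M → F} (L : F →L[ℝ] G) (h : D.Sm f) : D.Sm fun x => L (f x) := h.comp L.contDiff

theorem Sm.ofReal {f : M → ℝ} (h : D.Sm f) : D.Sm fun x => (f x : ℂ) := h.clm Complex.ofRealCLM

theorem Sm.conj {f : M → ℂ} (h : D.Sm f) : D.Sm fun x => (starRingEnd ℂ) (f x) :=
  h.clm (Complex.conjCLE : ℂ →L[ℝ] ℂ)

theorem Sm.exp {f : M → ℝ} (h : D.Sm f) : D.Sm fun x => Real.exp (f x) := h.comp Real.contDiff_exp

theorem Sm.d {f : M → F} (h : D.Sm f) : D.Sm (D.d f) := fun y => (h.cd y).d (by simp)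

theorem Sm.d_apply {f : M → F} (h : D.Sm f) (ξ : E n) : D.Sm fun x => D.d f x ξ :=
  h.d.clm_apply (sm_const ξ)

theorem sm_of_comp_p {f : E n → F} (h : ContDiff ℝ ∞ f) : D.Sm fun x => f (D.p x) := sm_p.comp h

/-! ### rules for `d` -/

theorem d_congr {f g : M → F} (e : f =ᶠ[𝓝 y] g) : D.d f y = D.d g y := (D.ev_comp e).fderiv_eq

theorem d_congr_ev {f g : M → F} (e : f =ᶠ[𝓝 y] g) : D.d f =ᶠ[𝓝 y] D.d g :=
  e.eventually_nhds.mono fun _ h => d_congr h

@[simp] theorem d_const (c : F) : D.d (fun _ => c) y = 0 := fderiv_const_apply c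

theorem d_p : D.d D.p y = ContinuousLinearMap.id ℝ (E n) := by
  have : D.p ∘ (D.ch y).symm =ᶠ[𝓝 (D.p y)] id := by
    filter_upwards [(D.ch y).open_target.mem_nhds (D.ch_target y)] with z hz
    exact (D.isCh y).p_symm hz
  rw [Dom.d, this.fderiv_eq, fderiv_id]

theorem Dif.has {f : M → F} (h : D.Dif f y) : HasFDerivAt (f ∘ (D.ch y).symm) (D.d f y) (D.p y) :=
  h.hasFDerivAt

theorem dif_const (c : F) : D.Dif (fun _ => c) y := differentiableAt_const c

theorem Dif.comp {f : M → F} {Φ : F → G} {L : F →L[ℝ] G} (hΦ : HasFDerivAt Φ L (f y)) (h : D.Dif f y) :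
    D.Dif (fun x => Φ (f x)) y ∧ D.d (fun x => Φ (f x)) y = L.comp (D.d f y) :=
  have := HasFDerivAt.comp (g := Φ) (g' := L) (D.p y) (by simpa using hΦ) h.has
  ⟨this.differentiableAt, this.fderiv⟩

theorem d_comp_deriv {f : M → ℝ} {χ : ℝ → ℝ} {c : ℝ} (hχ : HasDerivAt χ c (f y)) (h : D.Dif f y) (ξ : E n) :
    D.d (fun x => χ (f x)) y ξ = c * D.d f y ξ := by
  rw [(h.comp hχ.hasFDerivAt).2]
  simp [mul_comm]

theorem d_clm {f : M → F} (L : F →L[ℝ] G) (h : D.Dif f y) (ξ : E n) :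
    D.d (fun x => L (f x)) y ξ = L (D.d f y ξ) := by
  rw [(h.comp L.hasFDerivAt).2]
  rfl

theorem d_add {f g : M → F} (h : D.Dif f y) (h' : D.Dif g y) :
    D.d (fun x => f x + g x) y = D.d f y + D.d g y := (h.has.add h'.has).fderiv

theorem d_sub {f g : M → F} (h : D.Dif f y) (h' : D.Dif g y) :
    D.d (fun x => f x - g x) y = D.d f y - D.d g y := (h.has.sub h'.has).fderiv

theorem d_neg (f : M → F) : D.d (fun x => -f x) y = -D.d f y := fderiv_neg

theorem d_sum {ι : Type} {s : Finset ι} {f : ι → M → F} (h : ∀ i ∈ s, D.Dif (f i) y) :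
    D.d (fun x => ∑ i ∈ s, f i x) y = ∑ i ∈ s, D.d (f i) y :=
  (HasFDerivAt.fun_sum (A := fun i => f i ∘ (D.ch y).symm) fun i hi => (h i hi).has).fderiv

theorem d_mul {𝔸 : Type} [NormedCommRing 𝔸] [NormedAlgebra ℝ 𝔸] {f g : M → 𝔸} (h : D.Dif f y)
    (h' : D.Dif g y) (ξ : E n) :
    D.d (fun x => f x * g x) y ξ = f y * D.d g y ξ + D.d f y ξ * g y := by
  have := (h.has.mul h'.has).fderiv
  rw [show D.d (fun x => f x * g x) y = _ from this]
  simp [mul_comm]

theorem d_smul {c : M → ℝ} {f : M → F} (h : D.Dif c y) (h' : D.Dif f y) (ξ : E n) :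
    D.d (fun x => c x • f x) y ξ = c y • D.d f y ξ + D.d c y ξ • f y := by
  have := (h.has.smul h'.has).fderiv
  rw [show D.d (fun x => c x • f x) y = _ from this]
  simp

theorem d_ofReal {f : M → ℝ} (h : D.Dif f y) (ξ : E n) :
    D.d (fun x => (f x : ℂ)) y ξ = (D.d f y ξ : ℂ) := d_clm Complex.ofRealCLM h ξ

theorem d_conj {f : M → ℂ} (h : D.Dif f y) (ξ : E n) :
    D.d (fun x => (starRingEnd ℂ) (f x)) y ξ = (starRingEnd ℂ) (D.d f y ξ) :=
  d_clm (Complex.conjCLE : ℂ →L[ℝ] ℂ) h ξ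

theorem d_exp {f : M → ℝ} (h : D.Dif f y) (ξ : E n) :
    D.d (fun x => Real.exp (f x)) y ξ = Real.exp (f y) * D.d f y ξ :=
  d_comp_deriv (Real.hasDerivAt_exp _) h ξ

theorem d_zero_of_notMem {f : M → F} (h : y ∉ tsupport f) : D.d f y = 0 :=
  (d_congr (notMem_tsupport_iff_eventuallyEq.1 h)).trans (d_const 0)

theorem hasCompactSupport_d {f : M → F} (h : HasCompactSupport f) (ξ : E n) :
    HasCompactSupport fun x => D.d f x ξ :=
  h.mono' fun x hx => by
    by_contra k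
    exact hx (by simp [d_zero_of_notMem k])

/-- second derivatives in a chart -/
theorem dd_eq {f : M → F} (h : D.CD 2 f y) (ξ η : E n) :
    D.d (fun x => D.d f x ξ) y η = fderiv ℝ (fderiv ℝ (f ∘ (D.ch y).symm)) (D.p y) η ξ := by
  rw [← (D.d_ev f y).fderiv_eq]
  exact d_clm (ContinuousLinearMap.apply ℝ F ξ) ((h.d (l := 1) (by norm_num)).dif one_ne_zero) η

theorem dd_symm {f : M → F} (h : D.CD 2 f y) (ξ η : E n) :
    D.d (fun x => D.d f x ξ) y η = D.d (fun x => D.d f x η) y ξ := by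
  rw [dd_eq h, dd_eq h]
  exact (ContDiffAt.isSymmSndFDerivAt h (by simp)).eq _ _

theorem Sm.cd2 {f : M → F} (h : D.Sm f) (y : M) : D.CD 2 f y := (h.cd y).of_le (WithTop.coe_le_coe.2 le_top)

/-! ### `∂`, `∂̄`, holomorphic functions -/

variable (D) in
/-- `∂u (ξ) = ∑ ∂_j u · ξ_j` -/
def dz (u : M → ℂ) (y : M) (ξ : E n) : ℂ := (D.d u y ξ - Complex.I * D.d u y (Complex.I • ξ)) / 2

theorem Sm.db {u : M → ℂ} (h : D.Sm u) (ξ : E n) : D.Sm fun x => D.db u x ξ :=
  ((h.d_apply ξ).add ((sm_const Complex.I).mul (h.d_apply _))).mul (sm_const (2⁻¹ : ℂ))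

theorem Sm.dz {u : M → ℂ} (h : D.Sm u) (ξ : E n) : D.Sm fun x => D.dz u x ξ :=
  ((h.d_apply ξ).sub ((sm_const Complex.I).mul (h.d_apply _))).mul (sm_const (2⁻¹ : ℂ))

theorem db_congr {f g : M → ℂ} (e : f =ᶠ[𝓝 y] g) : D.db f y = D.db g y := by
  funext ξ
  simp only [db, d_congr e]

theorem db_add {f g : M → ℂ} (h : D.Dif f y) (h' : D.Dif g y) (ξ : E n) :
    D.db (fun x => f x + g x) y ξ = D.db f y ξ + D.db g y ξ := by
  simp only [db, d_add h h', add_apply]
  ring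

theorem db_sub {f g : M → ℂ} (h : D.Dif f y) (h' : D.Dif g y) (ξ : E n) :
    D.db (fun x => f x - g x) y ξ = D.db f y ξ - D.db g y ξ := by
  simp only [db, d_sub h h', sub_apply]
  ring

theorem db_mul {f g : M → ℂ} (h : D.Dif f y) (h' : D.Dif g y) (ξ : E n) :
    D.db (fun x => f x * g x) y ξ = f y * D.db g y ξ + D.db f y ξ * g y := by
  simp only [db, d_mul h h']
  ring

theorem dz_add {f g : M → ℂ} (h : D.Dif f y) (h' : D.Dif g y) (ξ : E n) :
    D.dz (fun x => f x + g x) y ξ = D.dz f y ξ + D.dz g y ξ := by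
  simp only [dz, d_add h h', add_apply]
  ring

theorem dz_mul {f g : M → ℂ} (h : D.Dif f y) (h' : D.Dif g y) (ξ : E n) :
    D.dz (fun x => f x * g x) y ξ = f y * D.dz g y ξ + D.dz f y ξ * g y := by
  simp only [dz, d_mul h h']
  ring

theorem db_conj {f : M → ℂ} (h : D.Dif f y) (ξ : E n) :
    D.db (fun x => (starRingEnd ℂ) (f x)) y ξ = (starRingEnd ℂ) (D.dz f y ξ) := by
  simp only [db, dz, d_conj h, map_div₀, map_sub, map_mul, Complex.conj_I, map_ofNat]
  ring

theorem dz_conj {f : M → ℂ} (h : D.Dif f y) (ξ : E n) :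
    D.dz (fun x => (starRingEnd ℂ) (f x)) y ξ = (starRingEnd ℂ) (D.db f y ξ) := by
  simp only [db, dz, d_conj h, map_div₀, map_add, map_mul, Complex.conj_I, map_ofNat]
  ring

theorem db_comp_real {φ : M → ℝ} {χ : ℝ → ℝ} {c : ℝ} (hχ : HasDerivAt χ c (φ y)) (h : D.Dif φ y) (ξ : E n) :
    D.db (fun x => (χ (φ x) : ℂ)) y ξ = c * D.db (fun x => (φ x : ℂ)) y ξ := by
  simp only [db, d_ofReal h, d_ofReal (h.comp hχ.hasFDerivAt).1, d_comp_deriv hχ h]
  push_cast
  ring

theorem norm_db_real {φ : M → ℝ} (h : D.Dif φ y) (ξ : E n) :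
    ‖D.db (fun x => (φ x : ℂ)) y ξ‖ ^ 2 = (D.d φ y ξ ^ 2 + D.d φ y (Complex.I • ξ) ^ 2) / 4 := by
  simp only [db, d_ofReal h]
  rw [Complex.sq_norm, Complex.normSq_apply]
  simp
  ring

theorem dif_of_hol {f : M → ℂ} (h : DifferentiableAt ℂ (f ∘ (D.ch y).symm) (D.p y)) : D.Dif f y :=
  h.restrictScalars ℝ

theorem d_of_hol {f : M → ℂ} (h : DifferentiableAt ℂ (f ∘ (D.ch y).symm) (D.p y)) (c : ℂ) (ξ : E n) :
    D.d f y (c • ξ) = c * D.d f y ξ := by
  simp only [Dom.d, h.fderiv_restrictScalars ℝ, ContinuousLinearMap.coe_restrictScalars', map_smul, smul_eq_mul]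

theorem db_of_hol {f : M → ℂ} (h : DifferentiableAt ℂ (f ∘ (D.ch y).symm) (D.p y)) (ξ : E n) :
    D.db f y ξ = 0 := by
  rw [db, d_of_hol h, ← mul_assoc, Complex.I_mul_I]
  ring

theorem hol_of_db {f : M → ℂ} (h : D.Dif f y) (h0 : ∀ ξ, D.db f y ξ = 0) :
    DifferentiableAt ℂ (f ∘ (D.ch y).symm) (D.p y) := by
  have k : ∀ ξ, D.d f y (Complex.I • ξ) = Complex.I * D.d f y ξ := fun ξ => by
    have := h0 ξ
    rw [db, div_eq_zero_iff, or_iff_left two_ne_zero] at this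
    linear_combination (-Complex.I) * this + D.d f y (Complex.I • ξ) * Complex.I_mul_I
  let L : E n →L[ℂ] ℂ :=
    { toFun := D.d f y
      map_add' := (D.d f y).map_add
      map_smul' := fun c ξ => by
        have : c • ξ = c.re • ξ + c.im • Complex.I • ξ := by
          conv_lhs => rw [← Complex.re_add_im c]
          rw [add_smul, mul_smul]
          rfl
        rw [this, map_add, map_smul, map_smul, k]
        simp only [Complex.real_smul, RingHom.id_apply, smul_eq_mul]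
        conv_rhs => rw [← Complex.re_add_im c]
        ring
      cont := (D.d f y).cont }
  exact (hasFDerivAt_of_restrictScalars ℝ (f' := L) h.has rfl).differentiableAt

/-! ### the Levi form -/

theorem levi_eq {φ : M → ℝ} (h : D.CD 2 φ y) (ξ : E n) :
    D.levi φ y ξ = (fderiv ℝ (fderiv ℝ (φ ∘ (D.ch y).symm)) (D.p y) ξ ξ +
      fderiv ℝ (fderiv ℝ (φ ∘ (D.ch y).symm)) (D.p y) (Complex.I • ξ) (Complex.I • ξ)) / 4 := by
  rw [levi, dd_eq h, dd_eq h]

theorem levi_congr {φ ψ : M → ℝ} (e : φ =ᶠ[𝓝 y] ψ) (ξ : E n) : D.levi φ y ξ = D.levi ψ y ξ := by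
  have k : ∀ η, (fun x => D.d φ x η) =ᶠ[𝓝 y] fun x => D.d ψ x η := fun η =>
    (d_congr_ev (D := D) e).mono fun x hx => by simp only [hx]
  rw [levi, levi, d_congr (k _), d_congr (k _)]

theorem levi_add {φ ψ : M → ℝ} (h : D.Sm φ) (h' : D.Sm ψ) (y : M) (ξ : E n) :
    D.levi (fun x => φ x + ψ x) y ξ = D.levi φ y ξ + D.levi ψ y ξ := by
  simp only [levi, d_add (h.dif _) (h'.dif _), add_apply,
    d_add ((h.d_apply _).dif _) ((h'.d_apply _).dif _)]
  ring

theorem levi_comp {φ : M → ℝ} (h : D.Sm φ) {χ : ℝ → ℝ} (hχ : ContDiff ℝ ∞ χ) (y : M) (ξ : E n) :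
    D.levi (fun x => χ (φ x)) y ξ = deriv χ (φ y) * D.levi φ y ξ +
      deriv (deriv χ) (φ y) * ‖D.db (fun x => (φ x : ℂ)) y ξ‖ ^ 2 := by
  have h1 : ContDiff ℝ ∞ (deriv χ) := (contDiff_infty_iff_deriv.1 hχ).2
  have k : ∀ x η, D.d (fun x => χ (φ x)) x η = deriv χ (φ x) * D.d φ x η := fun x η =>
    d_comp_deriv (hχ.differentiable (by simp) _).hasDerivAt (h.dif x) η
  simp only [levi, k, d_mul ((h.comp h1).dif _) ((h.d_apply _).dif _), norm_db_real (h.dif y),
    d_comp_deriv (h1.differentiable (by simp) _).hasDerivAt (h.dif y)]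
  ring

theorem levi_mul {φ : M → ℝ} (h : D.Sm φ) (c : ℝ) (y : M) (ξ : E n) :
    D.levi (fun x => c * φ x) y ξ = c * D.levi φ y ξ := by
  simp only [levi, d_mul (dif_const c) (h.dif _), d_mul (dif_const c) ((h.d_apply _).dif _), d_const,
    zero_apply, zero_mul, add_zero]
  ring

theorem levi_cont {φ : M → ℝ} (h : D.Sm φ) : Continuous fun q : M × E n => D.levi φ q.1 q.2 := by
  have k : ∀ x η, D.d (fun x => D.d φ x η) x η = D.d (D.d φ) x η η := fun x η =>
    d_clm (ContinuousLinearMap.apply ℝ ℝ η) (h.d.dif x) η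
  have c : Continuous fun q : M × E n => D.d (D.d φ) q.1 := h.d.d.continuous.comp continuous_fst
  simp only [levi, k]
  refine (((c.clm_apply continuous_snd).clm_apply continuous_snd).add
    ((c.clm_apply ?_).clm_apply ?_)).div_const 4 <;> fun_prop

theorem levi_smul {φ : M → ℝ} (h : D.Sm φ) (y : M) (t : ℝ) (ξ : E n) :
    D.levi φ y (t • ξ) = t ^ 2 * D.levi φ y ξ := by
  rw [levi_eq (h.cd2 y), levi_eq (h.cd2 y), smul_comm Complex.I t ξ]
  simp only [map_smul, smul_apply, smul_eq_mul]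
  ring

end Crest.Agent.R271.Dom
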