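import Crest.Agent.R271.H.Boch

/-! # Row 271, block H1: the a priori inequality for exact test forms (owner helper12) -/

set_option autoImplicit false
set_option linter.unusedSectionVars false
set_option linter.unusedVariables false

open MeasureTheory Filter Topology Set
open scoped ENNReal ContDiff

noncomputable section

namespace Crest.Agent.R271.Dom

theorem key_cs {M : Type} [MeasurableSpace M] {μ : Measure M} {f : M → ℂ} {p q : M → ℝ} (hp : Integrable p μ)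
    (hq : Integrable q μ) (p0 : ∀ y, 0 ≤ p y) (q0 : ∀ y, 0 ≤ q y) (h : ∀ y, ‖f y‖ ^ 2 ≤ p y * q y) :
    ‖∫ y, f y ∂μ‖ ^ 2 ≤ (∫ y, p y ∂μ) * ∫ y, q y ∂μ := by
  have k : ∀ t : ℝ, 0 < t → 2 * ‖∫ y, f y ∂μ‖ ≤ t * ∫ y, p y ∂μ + (∫ y, q y ∂μ) / t := fun t ht => by
    have := norm_integral_le_of_norm_le (f := f) (((hp.const_mul t).add (hq.div_const t)).div_const 2)
      (Eventually.of_forall fun y => by
        refine (pow_le_pow_iff_left₀ (norm_nonneg _) (by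
          have := p0 y; have := q0 y; simp only [Pi.add_apply]; positivity) two_ne_zero).1 ((h y).trans ?_)
        have e : p y * q y = (t * p y) * (q y / t) := by field_simp
        rw [e]
        simp only [Pi.add_apply]
        nlinarith [sq_nonneg (t * p y - q y / t)])
    simp only [Pi.add_apply] at this
    rw [integral_div, integral_add (hp.const_mul t) (hq.div_const t), integral_const_mul, integral_div] at this
    linarith
  have P0 : 0 ≤ ∫ y, p y ∂μ := integral_nonneg p0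
  have Q0 : 0 ≤ ∫ y, q y ∂μ := integral_nonneg q0
  have X0 := norm_nonneg (∫ y, f y ∂μ)
  generalize ‖∫ y, f y ∂μ‖ = X at *
  generalize ∫ y, p y ∂μ = P at *
  generalize ∫ y, q y ∂μ = Q at *
  rcases X0.eq_or_lt with h0 | h0
  · rw [← h0]
    simpa using mul_nonneg P0 Q0
  rcases P0.eq_or_lt with h1 | h1
  · have t0 : 0 < Q / X + 1 := by positivity
    have := k _ t0
    rw [← h1, mul_zero, zero_add, le_div_iff₀ t0] at this
    have e : X * (Q / X) = Q := by field_simp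
    nlinarith
  · have := k (X / P) (by positivity)
    have e1 : X / P * P = X := by field_simp
    have e2 : Q / (X / P) = P * Q / X := by field_simp
    rw [e1, e2] at this
    have : X ≤ P * Q / X := by linarith
    rw [le_div_iff₀ h0] at this
    linarith

theorem key_young (A B : ℂ) {ε : ℝ} (hε : 0 < ε) :
    ‖A‖ ^ 2 ≤ (1 + ε) * ‖A + B‖ ^ 2 + (1 + 1 / ε) * ‖B‖ ^ 2 := by
  have h : ‖A‖ ≤ ‖A + B‖ + ‖B‖ := by simpa using norm_sub_le (A + B) B
  have h2 : ‖A‖ ^ 2 ≤ (‖A + B‖ + ‖B‖) ^ 2 := pow_le_pow_left₀ (norm_nonneg _) h 2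
  have h3 : 2 * (‖A + B‖ * ‖B‖) ≤ ε * ‖A + B‖ ^ 2 + 1 / ε * ‖B‖ ^ 2 := by
    have : 0 ≤ (ε * ‖A + B‖ - ‖B‖) ^ 2 / ε := by positivity
    have e : (ε * ‖A + B‖ - ‖B‖) ^ 2 / ε = ε * ‖A + B‖ ^ 2 + 1 / ε * ‖B‖ ^ 2 - 2 * (‖A + B‖ * ‖B‖) := by
      field_simp
      ring
    linarith
  nlinarith

variable {n : ℕ} {M : Type} [TopologicalSpace M] [MeasurableSpace M] {D : Dom n M}

variable (D) in
/-- `e^{φ₁/2} ∑ ∂_j (e^{-φ₂} ∂̄_j ψ)` -/
def box (φ₁ φ₂ : M → ℝ) (ψ : M → ℂ) (y : M) : ℂ :=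
  (Real.exp (φ₁ y / 2) : ℂ) * ∑ j, D.dz (fun x => (Real.exp (-φ₂ x) : ℂ) * D.db ψ x (ee j)) y (ee j)

variable {φ₁ φ₂ : M → ℝ} {ψ ψ' : M → ℂ}

theorem Sm.half (h : D.Sm φ₁) : D.Sm fun y => φ₁ y / 2 := h.mul (sm_const (2⁻¹ : ℝ))

theorem Sm.box (h₁ : D.Sm φ₁) (h₂ : D.Sm φ₂) (hψ : D.Sm ψ) : D.Sm (D.box φ₁ φ₂ ψ) :=
  h₁.half.exp.ofReal.mul (Sm.sum fun j _ => (h₂.neg.exp.ofReal.mul (hψ.db _)).dz _)

theorem hcs_sum {ι F : Type} [AddCommMonoid F] {s : Finset ι} {f : ι → M → F}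
    (h : ∀ i ∈ s, HasCompactSupport (f i)) : HasCompactSupport fun y => ∑ i ∈ s, f i y := by
  classical
  induction s using Finset.induction_on with
  | empty => exact HasCompactSupport.zero
  | insert a s ha ih =>
    simp only [Finset.sum_insert ha]
    exact (h a (Finset.mem_insert_self _ _)).add (ih fun i hi => h i (Finset.mem_insert_of_mem hi))

theorem hcs_box (hc : HasCompactSupport ψ) : HasCompactSupport (D.box φ₁ φ₂ ψ) :=
  HasCompactSupport.mul_left (hcs_sum fun j _ => hasCompactSupport_dz (hasCompactSupport_db hc _).mul_left _)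

theorem box_add (h₂ : D.Sm φ₂) (hψ : D.Sm ψ) (hψ' : D.Sm ψ') (y : M) :
    D.box φ₁ φ₂ (fun x => ψ x + ψ' x) y = D.box φ₁ φ₂ ψ y + D.box φ₁ φ₂ ψ' y := by
  have se := h₂.neg.exp.ofReal
  simp only [box, db_add (hψ.dif _) (hψ'.dif _), mul_add,
    dz_add ((se.mul (hψ.db _)).dif _) ((se.mul (hψ'.db _)).dif _), Finset.sum_add_distrib]

theorem box_smul (h₂ : D.Sm φ₂) (hψ : D.Sm ψ) (c : ℂ) (y : M) :
    D.box φ₁ φ₂ (fun x => c * ψ x) y = c * D.box φ₁ φ₂ ψ y := by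
  have se := h₂.neg.exp.ofReal
  have e : ∀ x ξ, D.db (fun x => c * ψ x) x ξ = c * D.db ψ x ξ := fun x ξ => by
    rw [db_mul (dif_const c) (hψ.dif x)]
    simp [db]
  have e' : ∀ j, D.dz (fun x => (Real.exp (-φ₂ x) : ℂ) * (c * D.db ψ x (ee j))) y (ee j) =
      c * D.dz (fun x => (Real.exp (-φ₂ x) : ℂ) * D.db ψ x (ee j)) y (ee j) := fun j => by
    simp only [mul_left_comm _ c]
    rw [dz_mul (dif_const c) ((se.mul (hψ.db _)).dif y)]
    simp [dz]
  simp only [box, e, e', ← Finset.mul_sum]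
  ring

theorem conj_box (h₂ : D.Sm φ₂) (hψ : D.Sm ψ) (y : M) :
    (starRingEnd ℂ) (D.box φ₁ φ₂ ψ y) = (Real.exp (φ₁ y / 2) : ℂ) * ∑ j,
      D.db (fun x => (Real.exp (-φ₂ x) : ℂ) * (starRingEnd ℂ) (D.db ψ x (ee j))) y (ee j) := by
  have se := h₂.neg.exp.ofReal
  simp only [box, map_mul, map_sum, Complex.conj_ofReal, ← db_conj ((se.mul (hψ.db _)).dif _)]

variable [T2Space M] [BorelSpace M]

theorem int_levi {φ Ψ : M → ℝ} (hφ : D.Sm φ) (hΨ : D.Sm Ψ) (hψ : D.Sm ψ) (hc : HasCompactSupport ψ) :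
    Integrable (fun y => D.levi Ψ y (fun j => D.db ψ y (ee j)) * Real.exp (-φ y)) D.μ := by
  refine integrable_of_cont (((levi_cont hΨ).comp (continuous_id.prodMk
    (continuous_pi fun j => (hψ.db _).continuous))).mul hφ.neg.exp.continuous) (hc.mono' fun y hy => ?_)
  by_contra k
  have : D.levi Ψ y 0 = 0 := by simpa using levi_smul hΨ y 0 0
  replace : D.levi Ψ y (fun _ => 0) = 0 := this
  exact hy (by simp [db, d_zero_of_notMem k, this])

theorem box_adj {u : M → ℂ} (hu : D.Sm u) (h₂ : D.Sm φ₂) (hψ : D.Sm ψ) (hc : HasCompactSupport ψ) :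
    ∫ y, u y * (Real.exp (-(φ₁ y / 2)) : ℂ) * (starRingEnd ℂ) (D.box φ₁ φ₂ ψ y) ∂D.μ =
      -∫ y, D.db u y (fun j => D.db ψ y (ee j)) * (Real.exp (-φ₂ y) : ℂ) ∂D.μ := by
  have se := h₂.neg.exp.ofReal
  set β : Fin n → M → ℂ := fun j x => (Real.exp (-φ₂ x) : ℂ) * (starRingEnd ℂ) (D.db ψ x (ee j)) with hβ
  have sβ : ∀ j, D.Sm (β j) := fun j => se.mul (hψ.db _).conj
  have cβ : ∀ j, HasCompactSupport (β j) := fun j =>
    ((hasCompactSupport_db hc _).comp_left (g := starRingEnd ℂ) (map_zero _)).mul_left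
  have z : ∫ y, ∑ j, D.db (fun x => u x * β j x) y (ee j) ∂D.μ = 0 := by
    rw [integral_finsetSum _ fun j _ => integrable_of_cont ((hu.mul (sβ j)).db _).continuous
      (hasCompactSupport_db (cβ j).mul_left _)]
    exact Finset.sum_eq_zero fun j _ => integral_db (hu.mul (sβ j)) (cβ j).mul_left _
  have i : Integrable (fun y => ∑ j, D.db u y (ee j) * β j y) D.μ :=
    integrable_of_cont (Sm.sum fun j _ => (hu.db _).mul (sβ j)).continuous (hcs_sum fun j _ => (cβ j).mul_left)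
  have i' : Integrable (fun y => ∑ j, u y * D.db (β j) y (ee j)) D.μ :=
    integrable_of_cont (Sm.sum fun j _ => hu.mul ((sβ j).db _)).continuous
      (hcs_sum fun j _ => (hasCompactSupport_db (cβ j) _).mul_left)
  simp only [db_mul (hu.dif _) ((sβ _).dif _), Finset.sum_add_distrib] at z
  rw [integral_add i' i] at z
  have e1 : ∀ y, u y * (Real.exp (-(φ₁ y / 2)) : ℂ) * (starRingEnd ℂ) (D.box φ₁ φ₂ ψ y) =
      ∑ j, u y * D.db (β j) y (ee j) := fun y => by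
    rw [conj_box h₂ hψ, ← Finset.mul_sum, mul_assoc, ← mul_assoc (Real.exp _ : ℂ), ← Complex.ofReal_mul,
      ← Real.exp_add]
    simp [hβ]
  have e2 : ∀ y, D.db u y (fun j => D.db ψ y (ee j)) * (Real.exp (-φ₂ y) : ℂ) =
      ∑ j, D.db u y (ee j) * β j y := fun y => by
    rw [db_sum, Finset.sum_mul]
    exact Finset.sum_congr rfl fun j _ => by simp only [hβ]; ring
  simp only [e1, e2]
  linear_combination z

theorem box_lower {Φ η φ : M → ℝ} (hΦ : D.Sm Φ) (hη : D.Sm η) (hφ : D.Sm φ) {ε : ℝ} (hε : 0 < ε)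
    (hL : ∀ y ξ, D.levi Φ y ξ + (1 + 1 / ε) * ‖D.dz (fun x => (η x : ℂ)) y ξ‖ ^ 2 ≤ D.levi φ y ξ)
    (hψ : D.Sm ψ) (hc : HasCompactSupport ψ) :
    ∫ y, D.levi Φ y (fun j => D.db ψ y (ee j)) * Real.exp (-φ y) ∂D.μ ≤
      (1 + ε) * ∫ y, ‖D.box (fun x => φ x - 2 * η x) (fun x => φ x - η x) ψ y‖ ^ 2 ∂D.μ := by
  have h₂ := hφ.sub hη
  have h₁ := hφ.sub ((sm_const (2 : ℝ)).mul hη)
  have B := bochner hφ hψ hc
  have i1 := int_levi hφ hΦ hψ hc
  have i2 := int_levi hφ hφ hψ hc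
  have i3 : Integrable (fun y => ‖∑ j, D.del φ (fun x => D.db ψ x (ee j)) y (ee j)‖ ^ 2 * Real.exp (-φ y)) D.μ :=
    integrable_of_cont (((Sm.sum fun j _ => hφ.del (hψ.db _) _).continuous.norm.pow 2).mul hφ.neg.exp.continuous)
      (((hcs_sum fun j _ => hasCompactSupport_del φ (hasCompactSupport_db hc _) _).comp_left
        (g := fun z : ℂ => ‖z‖ ^ 2) (by simp)).mul_right)
  have i4 : Integrable (fun y => ‖D.box (fun x => φ x - 2 * η x) (fun x => φ x - η x) ψ y‖ ^ 2) D.μ :=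
    integrable_of_cont ((h₁.box h₂ hψ).continuous.norm.pow 2)
      ((hcs_box hc).comp_left (g := fun z : ℂ => ‖z‖ ^ 2) (by simp))
  have m := integral_mono (i1.add (i3.sub i2)) (i4.const_mul (1 + ε)) fun y => by
    have e1 : D.box (fun x => φ x - 2 * η x) (fun x => φ x - η x) ψ y = (Real.exp (-(φ y / 2)) : ℂ) *
        (∑ j, D.del φ (fun x => D.db ψ x (ee j)) y (ee j) +
          D.dz (fun x => (η x : ℂ)) y fun j => D.db ψ y (ee j)) := by
      have e2 : ∀ ξ, D.dz (fun x => ((φ x - η x : ℝ) : ℂ)) y ξ =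
          D.dz (fun x => (φ x : ℂ)) y ξ - D.dz (fun x => (η x : ℂ)) y ξ := fun ξ => by
        simp only [dz, d_ofReal (h₂.dif y), d_ofReal (hφ.dif y), d_ofReal (hη.dif y),
          d_sub (hφ.dif y) (hη.dif y), sub_apply]
        push_cast
        ring
      simp only [box, dz_exp_mul h₂ (hψ.db _), ← Finset.mul_sum]
      rw [← mul_assoc, ← Complex.ofReal_mul, ← Real.exp_add, dz_sum, ← Finset.sum_add_distrib]
      congr 1
      · congr 2
        ring
      · exact Finset.sum_congr rfl fun j _ => by simp only [del, e2]; ring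
    have e3 : Real.exp (-(φ y / 2)) ^ 2 = Real.exp (-φ y) := by
      rw [← Real.exp_nat_mul]
      congr 1
      push_cast
      ring
    simp only [Pi.add_apply, Pi.sub_apply]
    rw [e1, norm_mul, mul_pow, Complex.norm_real, Real.norm_eq_abs, sq_abs, e3]
    have a1 := hL y fun j => D.db ψ y (ee j)
    have a2 := key_young (∑ j, D.del φ (fun x => D.db ψ x (ee j)) y (ee j))
      (D.dz (fun x => (η x : ℂ)) y fun j => D.db ψ y (ee j)) hε
    have a3 := mul_le_mul_of_nonneg_right (add_le_add a1 a2) (Real.exp_pos (-φ y)).le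
    linarith
  simp only [Pi.add_apply, Pi.sub_apply] at m
  rw [integral_add i1 (by exact i3.sub i2), integral_sub i3 i2, integral_const_mul] at m
  linarith

/-- the a priori inequality -/
theorem box_key {Φ η φ h : M → ℝ} {u : M → ℂ} (hΦ : D.Psh Φ) (hη : D.Sm η) (hφ : D.Sm φ) {ε : ℝ} (hε : 0 < ε)
    (hL : ∀ y ξ, D.levi Φ y ξ + (1 + 1 / ε) * ‖D.dz (fun x => (η x : ℂ)) y ξ‖ ^ 2 ≤ D.levi φ y ξ)
    (hle : ∀ y, Φ y ≤ φ y - 2 * η y) (hu : D.Sm u) (h0 : ∀ y, 0 ≤ h y)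
    (hh : ∀ y ξ, ‖D.db u y ξ‖ ^ 2 ≤ h y * D.levi Φ y ξ)
    (hi : Integrable (fun y => h y * Real.exp (-Φ y)) D.μ) (hψ : D.Sm ψ) (hc : HasCompactSupport ψ) :
    ‖∫ y, u y * (Real.exp (-((φ y - 2 * η y) / 2)) : ℂ) *
      (starRingEnd ℂ) (D.box (fun x => φ x - 2 * η x) (fun x => φ x - η x) ψ y) ∂D.μ‖ ^ 2 ≤
      (1 + ε) * (∫ y, h y * Real.exp (-Φ y) ∂D.μ) *
        ∫ y, ‖D.box (fun x => φ x - 2 * η x) (fun x => φ x - η x) ψ y‖ ^ 2 ∂D.μ := by
  have p0 : ∀ y, 0 ≤ h y * Real.exp (-Φ y) := fun y => mul_nonneg (h0 y) (Real.exp_pos _).le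
  rw [box_adj (φ₁ := fun x => φ x - 2 * η x) hu (hφ.sub hη) hψ hc, norm_neg]
  refine (key_cs hi (int_levi hφ hΦ.1 hψ hc) p0 (fun y => mul_nonneg (hΦ.2 _ _) (Real.exp_pos _).le)
    fun y => ?_).trans ?_
  · rw [norm_mul, mul_pow, Complex.norm_real, Real.norm_eq_abs, sq_abs]
    have e : Real.exp (-(φ y - η y)) ^ 2 ≤ Real.exp (-Φ y) * Real.exp (-φ y) := by
      rw [← Real.exp_nat_mul, ← Real.exp_add]
      refine Real.exp_le_exp.2 ?_
      push_cast
      linarith [hle y]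
    calc _ ≤ h y * D.levi Φ y (fun j => D.db ψ y (ee j)) * (Real.exp (-Φ y) * Real.exp (-φ y)) :=
          mul_le_mul (hh _ _) e (by positivity) (mul_nonneg (h0 y) (hΦ.2 _ _))
      _ = _ := by ring
  · have := mul_le_mul_of_nonneg_left (box_lower hΦ.1 hη hφ hε hL hψ hc) (integral_nonneg (μ := D.μ) p0)
    linarith

end Crest.Agent.R271.Dom
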