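import Crest.Agent.R271.H.Meas

/-! # Row 271, block H1: the limit `ν → ∞` (owner helper12) -/

set_option autoImplicit false
set_option linter.unusedSectionVars false
set_option linter.unusedVariables false

open MeasureTheory Filter Topology Set
open scoped ENNReal ContDiff

noncomputable section

namespace Crest.Agent.R271.Dom

variable {n : ℕ} {M : Type} [TopologicalSpace M] [T2Space M] [MeasurableSpace M] [BorelSpace M] {D : Dom n M}

/-- Montel and Fatou.  Near `y` take `U = {ρ < ρ y + 1}`; for `ν ≥ ρ y + 1`, `φ ν = Φ` on `U` and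
`|F ν|² ≤ 2 e^{sup Φ} (|u|² + |u - F ν|²) e^{-Φ}`; each of the finitely many other `F ν` is continuous (`dif_of_hol`,
`Dif.continuousAt`), hence bounded on the compact set `{ρ ≤ ρ y + 1}` of finite measure (`finCpt`).
`lintegral_liminf_le` along the subsequence. -/
theorem hor_limit (hM : StMon D) {ρ Φ : M → ℝ} (hρ : Continuous ρ) (hK : ∀ r, IsCompact {y | ρ y ≤ r})
    (hΦ : Continuous Φ) {u : M → ℂ} (hu : Continuous u)
    (hu2 : ∫⁻ y, ENNReal.ofReal (‖u y‖ ^ 2 * Real.exp (-Φ y)) ∂D.μ ≠ ⊤) {I : ℝ} (hI : 0 ≤ I)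
    {F : ℕ → M → ℂ} {φ : ℕ → M → ℝ} (hF : ∀ ν, D.Hol (F ν)) (hφ : ∀ ν, Continuous (φ ν))
    (he : ∀ (ν : ℕ) y, ρ y ≤ ν → φ ν y = Φ y)
    (hb : ∀ ν : ℕ, ∫⁻ y, ENNReal.ofReal (‖u y - F ν y‖ ^ 2 * Real.exp (-φ ν y)) ∂D.μ ≤
      ENNReal.ofReal ((1 + 1 / ((ν : ℝ) + 1)) * I)) :
    ∃ G, D.Hol G ∧ ∫⁻ y, ENNReal.ofReal (‖u y - G y‖ ^ 2 * Real.exp (-Φ y)) ∂D.μ ≤ ENNReal.ofReal I := by
  have hFc : ∀ ν, Continuous (F ν) := fun ν =>
    continuous_iff_continuousAt.2 fun y => (dif_of_hol (hF ν y trivial)).continuousAt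
  obtain ⟨s, G, hs, hG, hl⟩ := hM F hF fun y => by
    have := D.finCpt
    obtain ⟨N, hN⟩ := exists_nat_ge (ρ y + 1)
    obtain ⟨S, hS⟩ := ((hK N).image hΦ).bddAbove
    have hb0 : ∀ ν, ∫⁻ x in {x | ρ x ≤ N}, ENNReal.ofReal (‖F ν x‖ ^ 2) ∂D.μ ≠ ⊤ := fun ν =>
      (setLIntegral_lt_top_of_isCompact (hK N).measure_lt_top.ne (hK N)
        (continuous_real_toNNReal.comp ((hFc ν).norm.pow 2))).ne
    refine ⟨{x | ρ x ≤ N}, mem_of_superset ((isOpen_lt hρ continuous_const).mem_nhds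
      (show ρ y < N by linarith)) fun x hx => (le_of_lt hx : ρ x ≤ N),
      ENNReal.ofReal (2 * Real.exp S) * (∫⁻ y, ENNReal.ofReal (‖u y‖ ^ 2 * Real.exp (-Φ y)) ∂D.μ +
        ENNReal.ofReal (2 * I)) + ∑ ν ∈ Finset.range N, ∫⁻ x in {x | ρ x ≤ N}, ENNReal.ofReal (‖F ν x‖ ^ 2) ∂D.μ,
      ENNReal.add_ne_top.2 ⟨ENNReal.mul_ne_top ENNReal.ofReal_ne_top (ENNReal.add_ne_top.2 ⟨hu2, ENNReal.ofReal_ne_top⟩),
        ENNReal.sum_ne_top.2 fun ν _ => hb0 ν⟩, fun ν => ?_⟩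
    rcases lt_or_ge ν N with h | h
    · exact (Finset.single_le_sum (f := fun ν => ∫⁻ x in {x | ρ x ≤ N}, ENNReal.ofReal (‖F ν x‖ ^ 2) ∂D.μ)
        (fun _ _ => zero_le) (Finset.mem_range.2 h)).trans le_add_self
    refine le_trans ?_ le_self_add
    have h1 : ENNReal.ofReal ((1 + 1 / ((ν : ℝ) + 1)) * I) ≤ ENNReal.ofReal (2 * I) := by
      refine ENNReal.ofReal_le_ofReal (mul_le_mul_of_nonneg_right ?_ hI)
      have : 1 / ((ν : ℝ) + 1) ≤ 1 := div_le_one_of_le₀ (by simp) (by positivity)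
      linarith
    calc _ ≤ ∫⁻ x in {x | ρ x ≤ N}, ENNReal.ofReal (2 * Real.exp S) *
          (ENNReal.ofReal (‖u x‖ ^ 2 * Real.exp (-Φ x)) + ENNReal.ofReal (‖u x - F ν x‖ ^ 2 * Real.exp (-φ ν x))) ∂D.μ := by
          refine setLIntegral_mono' (hK N).measurableSet fun x hx => ?_
          rw [he ν x (le_trans hx (by exact_mod_cast h)), ← ENNReal.ofReal_add (by positivity) (by positivity),
            ← ENNReal.ofReal_mul (by positivity)]
          refine ENNReal.ofReal_le_ofReal ?_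
          have h2 : 1 ≤ Real.exp S * Real.exp (-Φ x) := by
            rw [← Real.exp_add]
            exact Real.one_le_exp (by linarith [hS (mem_image_of_mem Φ hx)])
          have h3 : ‖F ν x‖ ≤ ‖u x‖ + ‖u x - F ν x‖ := by
            simpa using norm_sub_le (u x) (u x - F ν x)
          have h4 : ‖F ν x‖ ^ 2 ≤ 2 * (‖u x‖ ^ 2 + ‖u x - F ν x‖ ^ 2) := by
            nlinarith [norm_nonneg (F ν x), sq_nonneg (‖u x‖ - ‖u x - F ν x‖)]
          nlinarith [mul_le_mul_of_nonneg_left h2 (show 0 ≤ 2 * (‖u x‖ ^ 2 + ‖u x - F ν x‖ ^ 2) by positivity)]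
      _ ≤ _ := by
          refine (setLIntegral_le_lintegral _ _).trans ?_
          rw [lintegral_const_mul' _ _ ENNReal.ofReal_ne_top, lintegral_add_left (by fun_prop)]
          exact mul_le_mul_right (add_le_add_right ((hb ν).trans h1) _) _
  refine ⟨G, hG, ?_⟩
  have h1 : ∀ x, liminf (fun ν => ENNReal.ofReal (‖u x - F (s ν) x‖ ^ 2 * Real.exp (-φ (s ν) x))) atTop =
      ENNReal.ofReal (‖u x - G x‖ ^ 2 * Real.exp (-Φ x)) := fun x => by
    refine Tendsto.liminf_eq (ENNReal.tendsto_ofReal ?_)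
    have h2 := (((tendsto_const_nhds (x := u x)).sub ((tendstoLocallyUniformlyOn_univ.2 hl).tendsto_at
      (mem_univ x))).norm.pow 2).mul_const (Real.exp (-Φ x))
    refine h2.congr' ?_
    filter_upwards [(tendsto_natCast_atTop_atTop (R := ℝ).comp hs.tendsto_atTop).eventually_ge_atTop (ρ x)] with ν hν
    rw [he (s ν) x hν]
  have h2 : Tendsto (fun ν => ENNReal.ofReal ((1 + 1 / ((s ν : ℝ) + 1)) * I)) atTop (𝓝 (ENNReal.ofReal I)) := by
    refine ENNReal.tendsto_ofReal ?_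
    simpa using ((tendsto_const_nhds (x := (1 : ℝ))).add
      ((tendsto_one_div_add_atTop_nhds_zero_nat (𝕜 := ℝ)).comp hs.tendsto_atTop)).mul_const I
  simp only [← h1]
  refine (lintegral_liminf_le fun ν => ?_).trans ?_
  · have := hFc (s ν)
    have := hφ (s ν)
    fun_prop
  · rw [← h2.liminf_eq]
    exact liminf_le_liminf (Eventually.of_forall fun ν => hb (s ν))

end Crest.Agent.R271.Dom
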