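import Crest.Agent.R271.Defs
import Crest.Agent.R245.SCV

/-! # Row 271, block H.  See `Crest/Agent/R271/Blueprint.lean`, section H.

Mean value inequality: average the one variable mean value property of `ζ ↦ f (c + ζ w) ^ 2` over
`w` in the polydisc, which is invariant under the measure preserving rotations `w ↦ e^{iθ} w`. -/

set_option autoImplicit false

open MeasureTheory Filter Topology Set Metric
open scoped ENNReal

namespace Crest.Agent.R271

theorem mv_rot_mp {n : ℕ} (c : E n) {a : ℂ} (ha : ‖a‖ = 1) :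
    MeasurePreserving (fun w : E n => c + a • w) volume volume := by
  have h1 : MeasurePreserving (fun z : ℂ => a * z) volume volume :=
    (rotation ⟨a, by simpa [Submonoid.unitSphere] using ha⟩).measurePreserving
  have h2 : MeasurePreserving (fun w : E n => a • w) volume volume :=
    volume_preserving_pi (f := fun _ z => a * z) fun _ => h1
  exact (measurePreserving_add_left volume c).comp h2

theorem mv_rot_int {n : ℕ} (c : E n) (R : ℝ) {a : ℂ} (ha : ‖a‖ = 1) (g : E n → ℝ≥0∞) :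
    ∫⁻ w in ball 0 R, g (c + a • w) = ∫⁻ z in ball c R, g z := by
  have ha0 : a ≠ 0 := by rintro rfl; simp at ha
  have he : MeasurableEmbedding (fun w : E n => c + a • w) :=
    ((Homeomorph.smulOfNeZero a ha0).trans (Homeomorph.addLeft c)).measurableEmbedding
  rw [← (mv_rot_mp c ha).setLIntegral_comp_preimage_emb he g (ball c R)]
  congr 2
  ext w
  simp [mem_ball, dist_eq_norm, norm_smul, ha]

theorem mv_circle {n : ℕ} {f : E n → ℂ} {c : E n} {R : ℝ} (hf : DifferentiableOn ℂ f (ball c R))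
    {w : E n} (hw : w ∈ ball (0 : E n) R) :
    ENNReal.ofReal (‖f c‖ ^ 2) * ENNReal.ofReal (2 * Real.pi) ≤
      ∫⁻ θ in Ioc 0 (2 * Real.pi), ENNReal.ofReal (‖f (c + circleMap 0 1 θ • w)‖ ^ 2) := by
  have hmem : ∀ ζ : ℂ, ‖ζ‖ ≤ 1 → c + ζ • w ∈ ball c R := fun ζ hζ => by
    have h1 := mem_ball_zero_iff.1 hw
    have h2 : ‖ζ‖ * ‖w‖ ≤ ‖w‖ := mul_le_of_le_one_left (norm_nonneg _) hζ
    simp only [mem_ball, dist_eq_norm, add_sub_cancel_left, norm_smul]
    linarith
  have hd : DifferentiableOn ℂ (fun ζ : ℂ => f (c + ζ • w) ^ 2) (closure (ball 0 |(1 : ℝ)|)) := by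
    rw [abs_one, closure_ball _ one_ne_zero]
    exact (hf.comp (by fun_prop) fun ζ hζ => hmem ζ (mem_closedBall_zero_iff.1 hζ)).pow 2
  have h1 := hd.diffContOnCl.circleAverage
  have hpi : 0 < 2 * Real.pi := by positivity
  have hc : Continuous fun θ : ℝ => f (c + circleMap 0 1 θ • w) :=
    hf.continuousOn.comp_continuous (by fun_prop) fun θ => hmem _ (by simp)
  have h2 : ‖f c‖ ^ 2 * (2 * Real.pi) ≤
      ∫ θ in Ioc 0 (2 * Real.pi), ‖f (c + circleMap 0 1 θ • w)‖ ^ 2 := by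
    rw [Real.circleAverage_def] at h1
    simp only [zero_smul, add_zero] at h1
    rw [← norm_pow, ← h1, norm_smul, Real.norm_of_nonneg (by positivity), mul_comm, ← mul_assoc,
      mul_inv_cancel₀ hpi.ne', one_mul, ← intervalIntegral.integral_of_le hpi.le]
    refine (intervalIntegral.norm_integral_le_integral_norm hpi.le).trans (le_of_eq ?_)
    simp only [norm_pow]
  rw [← ENNReal.ofReal_mul (by positivity), ← ofReal_integral_eq_lintegral_ofReal]
  · exact ENNReal.ofReal_le_ofReal h2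
  · exact ((hc.norm.pow 2).integrableOn_Icc).mono_set Ioc_subset_Icc_self
  · exact Eventually.of_forall fun θ => by positivity

/-- the mean value inequality on a polydisc -/
theorem mv_flat {n : ℕ} {f : E n → ℂ} {c : E n} {R : ℝ} (hf : DifferentiableOn ℂ f (ball c R)) :
    ENNReal.ofReal (‖f c‖ ^ 2) * volume (ball (0 : E n) R) ≤
      ∫⁻ z in ball c R, ENNReal.ofReal (‖f z‖ ^ 2) := by
  have hpi : 0 < 2 * Real.pi := by positivity
  have hmeas : AEMeasurable (Function.uncurry fun (w : E n) (θ : ℝ) =>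
      ENNReal.ofReal (‖f (c + circleMap 0 1 θ • w)‖ ^ 2))
      ((volume.restrict (ball (0 : E n) R)).prod (volume.restrict (Ioc 0 (2 * Real.pi)))) := by
    rw [Measure.prod_restrict]
    refine ContinuousOn.aemeasurable ?_ (measurableSet_ball.prod measurableSet_Ioc)
    have h1 : ContinuousOn (fun q : E n × ℝ => f (c + circleMap 0 1 q.2 • q.1))
        (ball (0 : E n) R ×ˢ Ioc 0 (2 * Real.pi)) := by
      refine hf.continuousOn.comp (Continuous.continuousOn (by fun_prop)) fun q hq => ?_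
      have := mem_ball_zero_iff.1 hq.1
      simpa [mem_ball, dist_eq_norm, norm_smul] using this
    exact ENNReal.continuous_ofReal.comp_continuousOn (h1.norm.pow 2)
  have h1 : ∫⁻ _ in ball (0 : E n) R, ENNReal.ofReal (‖f c‖ ^ 2) * ENNReal.ofReal (2 * Real.pi) ≤
      ∫⁻ w in ball (0 : E n) R, ∫⁻ θ in Ioc 0 (2 * Real.pi),
        ENNReal.ofReal (‖f (c + circleMap 0 1 θ • w)‖ ^ 2) :=
    setLIntegral_mono' measurableSet_ball fun w hw => mv_circle hf hw
  rw [lintegral_lintegral_swap hmeas] at h1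
  have h2 : ∀ θ : ℝ, ∫⁻ w in ball (0 : E n) R, ENNReal.ofReal (‖f (c + circleMap 0 1 θ • w)‖ ^ 2) =
      ∫⁻ z in ball c R, ENNReal.ofReal (‖f z‖ ^ 2) := fun θ =>
    mv_rot_int c R (by simp) fun z => ENNReal.ofReal (‖f z‖ ^ 2)
  simp only [h2, setLIntegral_const, Real.volume_Ioc, sub_zero] at h1
  rw [mul_right_comm] at h1
  exact (ENNReal.mul_le_mul_iff_left (by simpa using Real.pi_pos) ENNReal.ofReal_ne_top).1 h1

/-- `L²` Cauchy estimates on polydiscs -/
theorem mv_flat_est (n : ℕ) {R : ℝ} (hR : 0 < R) : ∃ C : ℝ, 0 ≤ C ∧ ∀ (f : E n → ℂ) (c : E n) (B : ℝ),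
    DifferentiableOn ℂ f (ball c (3 * R)) → 0 ≤ B →
    ∫⁻ z in ball c (3 * R), ENNReal.ofReal (‖f z‖ ^ 2) ≤ ENNReal.ofReal (B ^ 2) →
    ∀ z ∈ ball c R, ‖f z‖ ≤ C * B ∧ ∀ z' ∈ ball c R, ‖f z - f z'‖ ≤ C * B * ‖z - z'‖ := by
  set v : ℝ := (volume (ball (0 : E n) R)).toReal with hv
  have hfin : volume (ball (0 : E n) R) ≠ ⊤ := measure_ball_lt_top.ne
  have hv0 : 0 < v := ENNReal.toReal_pos (measure_ball_pos _ _ hR).ne' hfin
  have hs : 0 < √v := Real.sqrt_pos.2 hv0
  refine ⟨(√v)⁻¹ + 2 * (√v)⁻¹ / R, by positivity, fun f c B hf hB hI => ?_⟩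
  have h1 : ∀ z ∈ ball c (2 * R), ‖f z‖ ≤ (√v)⁻¹ * B := fun z hz => by
    have hsub : ball z R ⊆ ball c (3 * R) := ball_subset_ball' (by have := mem_ball.1 hz; linarith)
    have h2 := ((mv_flat (hf.mono hsub)).trans (lintegral_mono_set hsub)).trans hI
    rw [← ENNReal.ofReal_toReal hfin, ← hv, ← ENNReal.ofReal_mul (by positivity),
      ENNReal.ofReal_le_ofReal_iff (by positivity)] at h2
    rw [← div_eq_inv_mul, le_div_iff₀ hs]
    refine (pow_le_pow_iff_left₀ (by positivity) hB two_ne_zero).1 ?_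
    rwa [mul_pow, Real.sq_sqrt hv0.le]
  have hsub : ∀ z ∈ ball c R, ball z R ⊆ ball c (2 * R) := fun z hz =>
    ball_subset_ball' (by have := mem_ball.1 hz; linarith)
  have h23 : ball c (2 * R) ⊆ ball c (3 * R) := ball_subset_ball (by linarith)
  have hd : ∀ z ∈ ball c R, DifferentiableAt ℂ f z := fun z hz =>
    hf.differentiableAt (isOpen_ball.mem_nhds (h23 (hsub z hz (mem_ball_self hR))))
  have hb : ∀ z ∈ ball c R, ‖fderiv ℂ f z‖ ≤ 2 * ((√v)⁻¹ * B) / R := fun z hz =>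
    R245.norm_fderiv_le_ball hR (hf.mono ((hsub z hz).trans h23)) fun w hw => h1 w (hsub z hz hw)
  intro z hz
  have e1 : 0 ≤ (√v)⁻¹ * B := by positivity
  have e2 : 0 ≤ 2 * (√v)⁻¹ / R * B := by positivity
  refine ⟨(h1 z (hsub z hz (mem_ball_self hR))).trans (by nlinarith), fun z' hz' => ?_⟩
  refine ((convex_ball c R).norm_image_sub_le_of_norm_fderiv_le hd hb hz' hz).trans ?_
  refine mul_le_mul_of_nonneg_right ?_ (norm_nonneg _)
  have : 2 * ((√v)⁻¹ * B) / R = 2 * (√v)⁻¹ / R * B := by ring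
  nlinarith

namespace Dom

variable {n : ℕ} {M : Type} [TopologicalSpace M] [MeasurableSpace M] (D : Dom n M)

theorem mv_mem (y : M) : y ∈ (D.ch y).source := (D.loc y).choose_spec.1

theorem mv_eq (y x : M) : D.ch y x = D.p x := (congrFun (D.loc y).choose_spec.2 x).symm

theorem mv_symm (y : M) {x : M} (hx : x ∈ (D.ch y).source) : (D.ch y).symm (D.p x) = x := by
  rw [← D.mv_eq y x, (D.ch y).left_inv hx]

theorem mv_p_symm (y : M) {z : E n} (hz : z ∈ (D.ch y).target) : D.p ((D.ch y).symm z) = z := by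
  rw [← D.mv_eq y, (D.ch y).right_inv hz]

theorem mv_target (y : M) {x : M} (hx : x ∈ (D.ch y).source) : D.p x ∈ (D.ch y).target := by
  rw [← D.mv_eq y x]; exact (D.ch y).map_source hx

/-- all charts have the same inverse locally -/
theorem mv_symm_ev (y : M) {x : M} (hx : x ∈ (D.ch y).source) :
    (D.ch y).symm =ᶠ[𝓝 (D.p x)] (D.ch x).symm := by
  have h1 : (D.ch y).target ∈ 𝓝 (D.p x) := (D.ch y).open_target.mem_nhds (D.mv_target y hx)
  have h2 : (D.ch y).symm ⁻¹' (D.ch x).source ∈ 𝓝 (D.p x) := by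
    refine ((D.ch y).continuousAt_symm (D.mv_target y hx)).preimage_mem_nhds ?_
    rw [D.mv_symm y hx]
    exact (D.ch x).open_source.mem_nhds (D.mv_mem x)
  filter_upwards [h1, h2] with z hz1 hz2
  have := D.mv_symm x hz2
  rw [D.mv_p_symm y hz1] at this
  exact this.symm

theorem mv_hol {F : M → ℂ} {U : Set M} (hF : D.HolOn F U) (y : M) {z : E n}
    (hz : z ∈ (D.ch y).target) (hU : (D.ch y).symm z ∈ U) :
    DifferentiableAt ℂ (F ∘ (D.ch y).symm) z := by
  have h1 := hF _ hU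
  have h2 := D.mv_symm_ev y ((D.ch y).map_target hz)
  rw [D.mv_p_symm y hz] at h1 h2
  exact h1.congr_of_eventuallyEq (h2.mono fun w hw => congrArg F hw)

/-- a polydisc in the chart at `y` inside a given neighbourhood -/
theorem mv_ball (y : M) {U : Set M} (hU : U ∈ 𝓝 y) : ∃ R : ℝ, 0 < R ∧
    ∀ z ∈ ball (D.p y) R, z ∈ (D.ch y).target ∧ (D.ch y).symm z ∈ U := by
  have h0 := D.mv_target y (D.mv_mem y)
  have h1 : (D.ch y).target ∈ 𝓝 (D.p y) := (D.ch y).open_target.mem_nhds h0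
  have h2 : (D.ch y).symm ⁻¹' U ∈ 𝓝 (D.p y) := by
    refine ((D.ch y).continuousAt_symm h0).preimage_mem_nhds ?_
    rwa [D.mv_symm y (D.mv_mem y)]
  obtain ⟨R, hR, h⟩ := Metric.mem_nhds_iff.1 (inter_mem h1 h2)
  exact ⟨R, hR, fun z hz => h hz⟩

theorem mv_int (y : M) {U : Set M} (hU : MeasurableSet U) {S : Set (E n)} (hS : MeasurableSet S)
    (hm : MeasurableSet (D.ch y).source)
    (h : ∀ z ∈ S, z ∈ (D.ch y).target ∧ (D.ch y).symm z ∈ U) (g : M → ℝ≥0∞) :
    ∫⁻ z in S, g ((D.ch y).symm z) ≤ ∫⁻ x in U, g x ∂D.μ := by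
  have h1 : (volume : Measure (E n)).restrict S = (volume.restrict (D.ch y).target).restrict S := by
    rw [Measure.restrict_restrict hS, inter_eq_left.2 fun z hz => (h z hz).1]
  rw [h1, ← lintegral_indicator hS, ← D.hμ (D.ch y) fun x _ => D.mv_eq y x, ← lintegral_indicator hU]
  refine (lintegral_map_le _ _).trans ?_
  refine le_trans (setLIntegral_mono' hm fun x hx => ?_) (setLIntegral_le_lintegral _ _)
  by_cases hx' : D.p x ∈ S
  · have h2 := (h _ hx').2
    rw [D.mv_symm y hx] at h2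
    rw [indicator_of_mem hx', indicator_of_mem h2, D.mv_symm y hx]
  · rw [indicator_of_notMem hx']
    exact zero_le

end Dom

theorem stMV : AllD fun _ _ _ _ D => StMV D := by
  intro n M _ _ _ _ _ D y₀ U hU hy₀
  obtain ⟨R', hR', hb⟩ := D.mv_ball y₀ (hU.mem_nhds hy₀)
  have hR : 0 < R' / 3 := by positivity
  obtain ⟨C, -, hC⟩ := mv_flat_est n hR
  have h3 : 3 * (R' / 3) = R' := by ring
  refine ⟨(D.ch y₀).source ∩ D.p ⁻¹' ball (D.p y₀) (R' / 3),
    inter_mem ((D.ch y₀).open_source.mem_nhds (D.mv_mem y₀))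
      (D.loc.continuous.continuousAt.preimage_mem_nhds (ball_mem_nhds _ hR)), C,
    fun F B hF hB hI y hy => ?_⟩
  have h1 := hC (F ∘ (D.ch y₀).symm) (D.p y₀) B
    (by rw [h3]; exact fun z hz => (D.mv_hol hF y₀ (hb z hz).1 (hb z hz).2).differentiableWithinAt) hB
    (by
      rw [h3]
      exact (D.mv_int y₀ hU.measurableSet measurableSet_ball
        (D.ch y₀).open_source.measurableSet hb fun x => ENNReal.ofReal (‖F x‖ ^ 2)).trans hI)
    (D.p y) hy.2
  simp only [Function.comp, D.mv_symm y₀ hy.1] at h1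
  refine ⟨h1.1, fun y' hy' => ?_⟩
  have h2 := h1.2 (D.p y') hy'.2
  rwa [D.mv_symm y₀ hy'.1] at h2

end Crest.Agent.R271
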