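import Crest.Agent.R271.H.Calc

/-! # Row 271, block H: bumps, the measure in charts, integration by parts (owner helper12) -/

set_option autoImplicit false
set_option linter.unusedSectionVars false
set_option linter.unusedVariables false

open MeasureTheory Filter Topology Set
open scoped ENNReal ContDiff

noncomputable section

namespace Crest.Agent.R271.Dom

variable {n : ℕ} {M : Type} [TopologicalSpace M] [MeasurableSpace M] {D : Dom n M}
  {F : Type} [NormedAddCommGroup F] [NormedSpace ℝ F]

variable (D) in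
theorem exists_ball (y : M) {U : Set M} (hU : U ∈ 𝓝 y) : ∃ r > 0, Metric.closedBall (D.p y) r ⊆ (D.ch y).target ∧
    (D.ch y).symm '' Metric.closedBall (D.p y) r ⊆ U := by
  obtain ⟨r, hr, h⟩ := Metric.nhds_basis_closedBall.mem_iff.1
    (inter_mem ((D.ch y).open_target.mem_nhds (D.ch_target y)) (D.ch_tendsto y hU))
  exact ⟨r, hr, fun z hz => (h hz).1, by rintro _ ⟨z, hz, rfl⟩; exact (h hz).2⟩

variable (D) in
theorem image_mem_nhds (y : M) {V : Set (E n)} (hV : V ∈ 𝓝 (D.p y)) : (D.ch y).symm '' V ∈ 𝓝 y := by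
  filter_upwards [D.p_cont.continuousAt hV, (D.ch y).open_source.mem_nhds (D.ch_source y)] with x h1 h2
  exact ⟨D.p x, h1, (D.isCh y).symm_p h2⟩

variable (D) in
include D in
theorem locallyCompact : LocallyCompactSpace M := by
  refine ⟨fun y U hU => ?_⟩
  obtain ⟨r, hr, h1, h2⟩ := D.exists_ball y hU
  exact ⟨_, D.image_mem_nhds y (Metric.closedBall_mem_nhds _ hr), h2,
    (isCompact_closedBall _ _).image_of_continuousOn ((D.ch y).continuousOn_symm.mono h1)⟩

/-- extension by zero of a function in a chart -/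
theorem IsCh.sm_indicator [T2Space M] {e : OpenPartialHomeomorph M (E n)} (he : D.IsCh e) {b : E n → F}
    (hb : ContDiffOn ℝ ∞ b e.target) {K : Set (E n)} (hK : IsCompact K) (hKe : K ⊆ e.target)
    (h0 : ∀ z ∈ e.target, z ∉ K → b z = 0) :
    D.Sm (e.source.indicator fun y => b (D.p y)) ∧
      tsupport (e.source.indicator fun y => b (D.p y)) ⊆ e.symm '' K ∧ IsCompact (e.symm '' K) := by
  have hC : IsCompact (e.symm '' K) := hK.image_of_continuousOn (e.continuousOn_symm.mono hKe)
  have hs : tsupport (e.source.indicator fun y => b (D.p y)) ⊆ e.symm '' K := by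
    refine closure_minimal (fun y hy => ?_) hC.isClosed
    by_cases h : y ∈ e.source
    · by_contra k
      refine hy ?_
      rw [indicator_of_mem h]
      exact h0 _ (he.target h) fun k' => k ⟨_, k', he.symm_p h⟩
    · exact absurd (indicator_of_notMem h _) hy
  refine ⟨fun y => ?_, hs, hC⟩
  by_cases h : y ∈ e.source
  · refine CD.congr (CD.comp (hb.contDiffAt (e.open_target.mem_nhds (he.target h))) cd_p) ?_
    filter_upwards [e.open_source.mem_nhds h] with x hx
    exact indicator_of_mem hx _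
  · refine CD.congr (cd_const 0) (notMem_tsupport_iff_eventuallyEq.1 fun k => h ?_)
    obtain ⟨z, hz, rfl⟩ := hs k
    exact e.map_target (hKe hz)

/-- the same in the other direction -/
theorem IsCh.contDiff_indicator {e : OpenPartialHomeomorph M (E n)} (he : D.IsCh e) {f : M → F}
    (hf : D.Sm f) (hc : HasCompactSupport f) (hs : tsupport f ⊆ e.source) :
    ContDiff ℝ ∞ (e.target.indicator (f ∘ e.symm)) ∧
      tsupport (e.target.indicator (f ∘ e.symm)) ⊆ D.p '' tsupport f ∧
      ∀ z ∈ e.target, e.target.indicator (f ∘ e.symm) =ᶠ[𝓝 z] f ∘ e.symm := by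
  have hC : IsCompact (D.p '' tsupport f) := hc.isCompact.image D.p_cont
  have ht : tsupport (e.target.indicator (f ∘ e.symm)) ⊆ D.p '' tsupport f := by
    refine closure_minimal (fun z hz => ?_) hC.isClosed
    by_cases h : z ∈ e.target
    · refine ⟨e.symm z, subset_tsupport _ fun k => hz ?_, he.p_symm h⟩
      rw [indicator_of_mem h]
      exact k
    · exact absurd (indicator_of_notMem h _) hz
  have ev : ∀ z ∈ e.target, e.target.indicator (f ∘ e.symm) =ᶠ[𝓝 z] f ∘ e.symm := fun z hz => by
    filter_upwards [e.open_target.mem_nhds hz] with x hx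
    exact indicator_of_mem hx _
  refine ⟨contDiff_iff_contDiffAt.2 fun z => ?_, ht, ev⟩
  by_cases h : z ∈ e.target
  · exact ((he.contDiffOn hf).contDiffAt (e.open_target.mem_nhds h)).congr_of_eventuallyEq (ev z h)
  · refine (contDiffAt_const (c := 0)).congr_of_eventuallyEq (notMem_tsupport_iff_eventuallyEq.1 fun k => h ?_)
    obtain ⟨y, hy, rfl⟩ := ht k
    exact he.target (hs hy)

variable (D) in
theorem exists_bump [T2Space M] (y : M) {U : Set M} (hU : U ∈ 𝓝 y) :
    ∃ θ : M → ℝ, D.Sm θ ∧ HasCompactSupport θ ∧ tsupport θ ⊆ U ∧ θ =ᶠ[𝓝 y] 1 ∧ ∀ x, 0 ≤ θ x ∧ θ x ≤ 1 := by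
  obtain ⟨r, hr, h1, h2⟩ := D.exists_ball y hU
  let b : ContDiffBump (D.p y) := ⟨r / 2, r, by linarith, by linarith⟩
  obtain ⟨k1, k2, k3⟩ := (D.isCh y).sm_indicator (b := b) b.contDiff.contDiffOn (isCompact_closedBall _ r) h1
    fun z _ hz => b.zero_of_le_dist (not_le.1 fun k => hz (Metric.mem_closedBall.2 k)).le
  refine ⟨_, k1, k3.of_isClosed_subset (isClosed_tsupport _) k2, k2.trans h2, ?_, fun x => ?_⟩
  · filter_upwards [(D.ch y).open_source.mem_nhds (D.ch_source y), D.p_cont.continuousAt b.eventuallyEq_one]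
      with x hx hx'
    rw [indicator_of_mem hx]
    exact hx'
  · by_cases hx : x ∈ (D.ch y).source
    · rw [indicator_of_mem hx]
      exact ⟨b.nonneg, b.le_one⟩
    · rw [indicator_of_notMem hx]
      exact ⟨le_rfl, zero_le_one⟩

variable (D) in
/-- finite partitions of unity on a compact set -/
theorem exists_part [T2Space M] {K : Set M} (hK : IsCompact K) {U : M → Set M} (hU : ∀ y, U y ∈ 𝓝 y) :
    ∃ (N : ℕ) (c : Fin N → M) (θ : Fin N → M → ℝ),
      (∀ i, D.Sm (θ i) ∧ HasCompactSupport (θ i) ∧ tsupport (θ i) ⊆ U (c i)) ∧ ∀ x ∈ K, ∑ i, θ i x = 1 := by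
  refine hK.induction_on (p := fun s => ∃ (N : ℕ) (c : Fin N → M) (θ : Fin N → M → ℝ),
      (∀ i, D.Sm (θ i) ∧ HasCompactSupport (θ i) ∧ tsupport (θ i) ⊆ U (c i)) ∧ ∀ x ∈ s, ∑ i, θ i x = 1)
    ⟨0, Fin.elim0, Fin.elim0, fun i => i.elim0, fun _ h => h.elim⟩
    (fun s t hst ⟨N, c, θ, h1, h2⟩ => ⟨N, c, θ, h1, fun x hx => h2 x (hst hx)⟩) ?_ fun y _ => ?_
  · rintro s t ⟨N, c, θ, h1, h2⟩ ⟨N', c', θ', k1, k2⟩
    have sm : D.Sm fun x => 1 - ∑ i, θ i x := (sm_const 1).sub (Sm.sum fun i _ => (h1 i).1)
    refine ⟨N + N', Fin.append c c', Fin.append θ fun i x => (1 - ∑ i, θ i x) * θ' i x, fun i => ?_, ?_⟩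
    · refine Fin.addCases (fun i => ?_) (fun i => ?_) i
      · simpa only [Fin.append_left] using h1 i
      · simp only [Fin.append_right]
        exact ⟨sm.mul (k1 i).1, (k1 i).2.1.mul_left, (tsupport_mul_subset_right).trans (k1 i).2.2⟩
    · intro x hx
      simp only [Fin.sum_univ_add, Fin.append_left, Fin.append_right, ← Finset.mul_sum]
      rcases hx with hx | hx
      · simp [h2 x hx]
      · simp [k2 x hx]
  · obtain ⟨θ, h1, h2, h3, h4, -⟩ := D.exists_bump y (hU y)
    exact ⟨_, mem_nhdsWithin_of_mem_nhds h4, 1, fun _ => y, fun _ => θ, fun _ => ⟨h1, h2, h3⟩,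
      fun x hx => by simpa using hx⟩

variable [BorelSpace M]

theorem IsCh.exists_map {e : OpenPartialHomeomorph M (E n)} (he : D.IsCh e) {A : Set M} (hAe : A ⊆ e.source) :
    ∃ ν : Measure e.source, MeasurableEmbedding (Subtype.val : e.source → M) ∧
      MeasurableEmbedding (fun y : e.source => D.p y) ∧ D.μ.restrict A = ν.map Subtype.val ∧
      volume.restrict (D.p '' A) = ν.map fun y : e.source => D.p y := by
  have m1 : MeasurableEmbedding (Subtype.val : e.source → M) :=
    MeasurableEmbedding.subtype_coe e.open_source.measurableSet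
  have m2 : MeasurableEmbedding (fun y : e.source => D.p y) := by
    have := e.isOpenEmbedding_restrict.measurableEmbedding
    convert this using 2 with y
    exact (he y y.2).symm
  have e1 : (D.μ.comap (Subtype.val : e.source → M)).map Subtype.val = D.μ.restrict e.source :=
    map_comap_subtype_coe e.open_source.measurableSet _
  have e2 : (D.μ.comap (Subtype.val : e.source → M)).map (fun y : e.source => D.p y) =
      volume.restrict e.target := by
    rw [← D.hμ e he, ← e1, Measure.map_map D.p_cont.measurable m1.measurable]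
    rfl
  refine ⟨(D.μ.comap Subtype.val).restrict (Subtype.val ⁻¹' A), m1, m2, ?_, ?_⟩
  · rw [← m1.restrict_map, e1, Measure.restrict_restrict_of_subset hAe]
  · have e3 : (fun y : e.source => D.p y) ⁻¹' (D.p '' A) = Subtype.val ⁻¹' A := by
      ext y
      refine ⟨?_, fun h => ⟨y, h, rfl⟩⟩
      rintro ⟨x, hx, h⟩
      have : x = y := by rw [← he.symm_p (hAe hx), ← he.symm_p y.2]; exact congrArg _ h
      exact show (y : M) ∈ A from this ▸ hx
    rw [← e3, ← m2.restrict_map, e2, Measure.restrict_restrict_of_subset]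
    rintro _ ⟨x, hx, rfl⟩
    exact he.target (hAe hx)

theorem IsCh.image_source {e : OpenPartialHomeomorph M (E n)} (he : D.IsCh e) : D.p '' e.source = e.target := by
  rw [← e.image_source_eq_target]
  exact image_congr fun y hy => (he y hy).symm

theorem IsCh.measure_eq {e : OpenPartialHomeomorph M (E n)} (he : D.IsCh e) {A : Set M} (hAe : A ⊆ e.source) :
    D.μ A = volume (D.p '' A) := by
  obtain ⟨ν, m1, m2, h1, h2⟩ := he.exists_map hAe
  rw [← Measure.restrict_apply_univ, ← Measure.restrict_apply_univ (μ := volume), h1, h2, m1.map_apply,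
    m2.map_apply]
  rfl

theorem IsCh.map_p {e : OpenPartialHomeomorph M (E n)} (he : D.IsCh e) {A : Set M} (hAe : A ⊆ e.source) :
    (D.μ.restrict A).map D.p = volume.restrict (D.p '' A) := by
  obtain ⟨ν, m1, m2, h1, h2⟩ := he.exists_map hAe
  rw [h1, h2, Measure.map_map D.p_cont.measurable m1.measurable]
  rfl

theorem IsCh.map_symm {e : OpenPartialHomeomorph M (E n)} (he : D.IsCh e) {A : Set M} (hAe : A ⊆ e.source) :
    (volume.restrict (D.p '' A)).map e.symm = D.μ.restrict A := by
  obtain ⟨ν, m1, m2, h1, h2⟩ := he.exists_map hAe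
  have e1 : (e.symm ∘ fun y : e.source => D.p y) = Subtype.val := funext fun y => he.symm_p y.2
  rw [h1, h2, AEMeasurable.map_map_of_aemeasurable _ m2.measurable.aemeasurable, e1]
  rw [m2.aemeasurable_map_iff, e1]
  exact m1.measurable.aemeasurable

theorem IsCh.lintegral_eq {e : OpenPartialHomeomorph M (E n)} (he : D.IsCh e) {A : Set M}
    (hA : MeasurableSet A) (hAe : A ⊆ e.source) (f : M → ℝ≥0∞) :
    ∫⁻ y in A, f y ∂D.μ = ∫⁻ z in D.p '' A, f (e.symm z) := by
  obtain ⟨ν, m1, m2, h1, h2⟩ := he.exists_map hAe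
  rw [h1, h2, m1.lintegral_map, m2.lintegral_map]
  exact lintegral_congr fun y => by rw [he.symm_p y.2]

theorem IsCh.integral_eq {e : OpenPartialHomeomorph M (E n)} (he : D.IsCh e) {A : Set M}
    (hA : MeasurableSet A) (hAe : A ⊆ e.source) (f : M → F) :
    ∫ y in A, f y ∂D.μ = ∫ z in D.p '' A, f (e.symm z) := by
  obtain ⟨ν, m1, m2, h1, h2⟩ := he.exists_map hAe
  rw [h1, h2, m1.integral_map, m2.integral_map]
  exact integral_congr_ae (Eventually.of_forall fun y => by simp only [he.symm_p y.2])

variable (D) in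
theorem locFin : IsLocallyFiniteMeasure D.μ := by
  refine ⟨fun y => ?_⟩
  obtain ⟨r, hr, h1, h2⟩ := D.exists_ball y ((D.ch y).open_source.mem_nhds (D.ch_source y))
  refine ⟨_, D.image_mem_nhds y (Metric.closedBall_mem_nhds _ hr), ?_⟩
  rw [(D.isCh y).measure_eq h2]
  refine (measure_mono ?_).trans_lt (isCompact_closedBall (D.p y) r).measure_lt_top
  rintro _ ⟨_, ⟨z, hz, rfl⟩, rfl⟩
  rwa [(D.isCh y).p_symm (h1 hz)]

variable (D) in
theorem finCpt : IsFiniteMeasureOnCompacts D.μ := by
  have := D.locFin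
  infer_instance

variable (D) in
theorem openPos : D.μ.IsOpenPosMeasure := by
  refine ⟨fun U hU ⟨y, hy⟩ h0 => ?_⟩
  obtain ⟨r, hr, h1, h2⟩ := D.exists_ball y
    (inter_mem (hU.mem_nhds hy) ((D.ch y).open_source.mem_nhds (D.ch_source y)))
  have := measure_mono_null (h2.trans inter_subset_left) h0
  rw [(D.isCh y).measure_eq (h2.trans inter_subset_right)] at this
  refine (Metric.measure_closedBall_pos volume (D.p y) hr).ne' (measure_mono_null (fun z hz => ?_) this)
  exact ⟨_, ⟨z, hz, rfl⟩, (D.isCh y).p_symm (h1 hz)⟩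

theorem integrable_of_cont {f : M → F} (hf : Continuous f) (hc : HasCompactSupport f) : Integrable f D.μ :=
  have := D.finCpt
  hf.integrable_of_hasCompactSupport hc

theorem IsCh.integral_d {e : OpenPartialHomeomorph M (E n)} (he : D.IsCh e) {f : M → F} (hf : D.Sm f)
    (hc : HasCompactSupport f) (hs : tsupport f ⊆ e.source) (ξ : E n) : ∫ y, D.d f y ξ ∂D.μ = 0 := by
  obtain ⟨h1, h2, h3⟩ := he.contDiff_indicator hf hc hs
  set G := e.target.indicator (f ∘ e.symm) with hG
  have hGc : HasCompactSupport G :=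
    (hc.isCompact.image D.p_cont).of_isClosed_subset (isClosed_tsupport _) h2
  have e1 : ∫ y, D.d f y ξ ∂D.μ = ∫ y in e.source, D.d f y ξ ∂D.μ :=
    (setIntegral_eq_integral_of_forall_compl_eq_zero fun y hy => by
      rw [d_zero_of_notMem fun k => hy (hs k)]; rfl).symm
  have e2 : ∫ z in e.target, D.d f (e.symm z) ξ = ∫ z in e.target, fderiv ℝ G z ξ :=
    setIntegral_congr_fun e.open_target.measurableSet fun z hz => by
      simp only [he.d_symm hz, (h3 z hz).fderiv_eq]
  have e3 : ∫ z in e.target, fderiv ℝ G z ξ = ∫ z, fderiv ℝ G z ξ :=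
    setIntegral_eq_integral_of_forall_compl_eq_zero fun z hz => by
      have : z ∉ tsupport G := fun k => by
        obtain ⟨y, hy, rfl⟩ := h2 k
        exact hz (he.target (hs hy))
      rw [(notMem_tsupport_iff_eventuallyEq.1 this).fderiv_eq]
      simp
  rw [e1, he.integral_eq e.open_source.measurableSet subset_rfl, he.image_source, e2, e3]
  have i1 : Integrable (fun z => fderiv ℝ G z ξ) :=
    ((h1.continuous_fderiv (by simp)).clm_apply continuous_const).integrable_of_hasCompactSupport
      (hGc.fderiv_apply ℝ ξ)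
  have := integral_smul_fderiv_eq_neg_fderiv_smul_of_integrable (μ := volume) (f := fun _ : E n => (1 : ℝ))
    (g := G) (v := ξ) (by simp) (by simpa using i1)
    (by simpa using h1.continuous.integrable_of_hasCompactSupport hGc)
    (fun _ _ => differentiableAt_const _) fun z _ => h1.differentiable (by simp) z
  simpa using this

/-- integration by parts -/
theorem integral_d [T2Space M] {f : M → F} (hf : D.Sm f) (hc : HasCompactSupport f) (ξ : E n) :
    ∫ y, D.d f y ξ ∂D.μ = 0 := by
  obtain ⟨θ, h1, h2, h3, h4⟩ := hc.isCompact.induction_on (p := fun s => ∃ θ : M → ℝ, D.Sm θ ∧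
      HasCompactSupport θ ∧ (∀ x ∈ s, θ x = 1) ∧
        ∀ g : M → F, D.Sm g → ∫ y, D.d (fun x => θ x • g x) y ξ ∂D.μ = 0)
    ⟨fun _ => 0, sm_const 0, HasCompactSupport.zero, fun _ h => h.elim, fun g _ => by simp⟩
    (fun s t hst ⟨θ, h1, h2, h3, h4⟩ => ⟨θ, h1, h2, fun x hx => h3 x (hst hx), h4⟩)
    (fun s t ⟨θ, h1, h2, h3, h4⟩ ⟨θ', k1, k2, k3, k4⟩ => by
      have sm : D.Sm fun x => 1 - θ x := (sm_const 1).sub h1
      refine ⟨fun x => θ x + θ' x * (1 - θ x), h1.add (k1.mul sm), h2.add k2.mul_right, ?_, fun g hg => ?_⟩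
      · rintro x (hx | hx)
        · simp [h3 x hx]
        · simp [k3 x hx]
      · have e : (fun x => (θ x + θ' x * (1 - θ x)) • g x) = fun x => θ x • g x + θ' x • (1 - θ x) • g x := by
          funext x
          rw [add_smul, mul_smul]
        have s1 := h1.smul hg
        have s2 := k1.smul (sm.smul hg)
        simp only [e, d_add (s1.dif _) (s2.dif _), add_apply]
        rw [integral_add, h4 g hg, k4 _ (sm.smul hg), add_zero]
        · exact integrable_of_cont (s1.d_apply ξ).continuous (hasCompactSupport_d h2.smul_right ξ)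
        · exact integrable_of_cont (s2.d_apply ξ).continuous (hasCompactSupport_d k2.smul_right ξ))
    (fun y _ => by
      obtain ⟨θ, h1, h2, h3, h4, -⟩ := D.exists_bump y ((D.ch y).open_source.mem_nhds (D.ch_source y))
      exact ⟨_, mem_nhdsWithin_of_mem_nhds h4, θ, h1, h2, fun x hx => hx, fun g hg =>
        (D.isCh y).integral_d (h1.smul hg) h2.smul_right ((tsupport_smul_subset_left _ _).trans h3) ξ⟩)
  have e : (fun x => θ x • f x) = f := by
    funext x
    by_cases hx : x ∈ tsupport f
    · rw [h3 x hx, one_smul]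
    · rw [image_eq_zero_of_notMem_tsupport hx, smul_zero]
  have := h4 f hf
  rwa [e] at this

theorem integral_db [T2Space M] {f : M → ℂ} (hf : D.Sm f) (hc : HasCompactSupport f) (ξ : E n) :
    ∫ y, D.db f y ξ ∂D.μ = 0 := by
  have i : ∀ η, Integrable (fun y => D.d f y η) D.μ := fun η =>
    integrable_of_cont (hf.d_apply η).continuous (hasCompactSupport_d hc η)
  simp only [db]
  rw [integral_div, integral_add (i _) ((i _).const_mul _), integral_const_mul, integral_d hf hc,
    integral_d hf hc]
  simp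

theorem integral_dz [T2Space M] {f : M → ℂ} (hf : D.Sm f) (hc : HasCompactSupport f) (ξ : E n) :
    ∫ y, D.dz f y ξ ∂D.μ = 0 := by
  have i : ∀ η, Integrable (fun y => D.d f y η) D.μ := fun η =>
    integrable_of_cont (hf.d_apply η).continuous (hasCompactSupport_d hc η)
  simp only [dz]
  rw [integral_div, integral_sub (i _) ((i _).const_mul _), integral_const_mul, integral_d hf hc,
    integral_d hf hc]
  simp

end Crest.Agent.R271.Dom
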