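import Crest.Agent.R271.H.MV

/-! # Row 271, block H.  See `Crest/Agent/R271/Blueprint.lean`, section H.

Montel: `stMV` gives local bounds and equicontinuity; Tychonoff on a countable dense set gives the
subsequence. -/

set_option autoImplicit false

open MeasureTheory Filter Topology Set Metric
open scoped ENNReal

namespace Crest.Agent.R271

/-- Weierstrass on `ℂⁿ` -/
theorem mon_weier {n : ℕ} {G : ℕ → E n → ℂ} {g : E n → ℂ} {O : Set (E n)} (hO : IsOpen O)
    (hd : ∀ ν, DifferentiableOn ℂ (G ν) O) (hl : TendstoLocallyUniformlyOn G g atTop O) :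
    DifferentiableOn ℂ g O := by
  intro z hz
  obtain ⟨R, hR, hsub⟩ := Metric.nhds_basis_closedBall.mem_iff.1 (hO.mem_nhds hz)
  have hu : TendstoUniformlyOn G g atTop (closedBall z R) :=
    (tendstoLocallyUniformlyOn_iff_tendstoUniformlyOn_of_compact (isCompact_closedBall _ _)).1
      (hl.mono hsub)
  have hex : ∀ m : ℕ, ∃ j, ∀ q ∈ closedBall z R, ‖G j q - g q‖ ≤ 1 / ((m : ℝ) + 1) := fun m => by
    obtain ⟨j, h2⟩ := (Metric.tendstoUniformlyOn_iff.1 hu (1 / ((m : ℝ) + 1))
      (by positivity)).exists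
    refine ⟨j, fun q hq => ?_⟩
    rw [← dist_eq_norm, dist_comm]
    exact (h2 q hq).le
  choose j hj using hex
  obtain ⟨B, hB⟩ := (isCompact_closedBall z R).exists_bound_of_continuousOn
    ((hd (j 0)).continuousOn.mono hsub)
  refine (R245.differentiableAt_of_unif (G := fun m => G (j m)) (B := B + 1) hR
    (fun m => (hd (j m)).mono (ball_subset_closedBall.trans hsub))
    tendsto_one_div_add_atTop_nhds_zero_nat
    (fun m q hq => hj m q (ball_subset_closedBall hq)) fun q hq => ?_).differentiableWithinAt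
  have a1 := hB q (ball_subset_closedBall hq)
  have a2 := hj 0 q (ball_subset_closedBall hq)
  have a3 := norm_sub_le (G (j 0) q) (G (j 0) q - g q)
  rw [sub_sub_cancel] at a3
  simp only [Nat.cast_zero, zero_add, div_one] at a2
  linarith

/-- Weierstrass on a Riemann domain -/
theorem Dom.mon_hol {n : ℕ} {M : Type} [TopologicalSpace M] [MeasurableSpace M] (D : Dom n M)
    {F : ℕ → M → ℂ} {G : M → ℂ} (hF : ∀ ν, D.Hol (F ν)) (hl : TendstoLocallyUniformly F G atTop) :
    D.Hol G := by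
  intro y _
  have h1 : TendstoLocallyUniformlyOn (fun ν => F ν ∘ (D.ch y).symm) (G ∘ (D.ch y).symm) atTop
      (D.ch y).target :=
    (tendstoLocallyUniformlyOn_univ.2 hl).comp _ (mapsTo_univ _ _) (D.ch y).continuousOn_symm
  exact (mon_weier (D.ch y).open_target (fun ν z hz =>
    (D.mv_hol (hF ν) y hz (mem_univ _)).differentiableWithinAt) h1).differentiableAt
    ((D.ch y).open_target.mem_nhds (D.mv_target y (D.mv_mem y)))

/-- Arzelà–Ascoli for sequences on a separable space -/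
theorem mon_arz {M : Type} [TopologicalSpace M] [SecondCountableTopology M] {F : ℕ → M → ℂ}
    (hb : ∀ y, ∃ C : ℝ, ∀ ν, ‖F ν y‖ ≤ C)
    (he : ∀ y, ∀ ε > 0, ∀ᶠ x in 𝓝 y, ∀ ν, dist (F ν y) (F ν x) < ε) :
    ∃ (s : ℕ → ℕ) (G : M → ℂ), StrictMono s ∧ TendstoLocallyUniformly (fun ν => F (s ν)) G atTop := by
  obtain ⟨S, hSc, hSd⟩ := TopologicalSpace.exists_countable_dense M
  haveI : Countable S := hSc.to_subtype
  choose C hC using hb
  have hK : IsCompact (Set.pi univ fun d : S => closedBall (0 : ℂ) (C d)) :=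
    isCompact_univ_pi fun d => isCompact_closedBall _ _
  obtain ⟨a, -, s, hs, ha⟩ := hK.tendsto_subseq (x := fun ν (d : S) => F ν d)
    fun ν d _ => mem_closedBall_zero_iff.2 (hC d ν)
  have hcau : ∀ y, CauchySeq fun ν => F (s ν) y := fun y => by
    refine Metric.cauchySeq_iff.2 fun ε hε => ?_
    obtain ⟨x, hxS, hx⟩ := hSd.inter_nhds_nonempty (he y (ε / 3) (by linarith))
    have h1 : CauchySeq fun ν => F (s ν) x := (tendsto_pi_nhds.1 ha ⟨x, hxS⟩).cauchySeq
    obtain ⟨N, hN⟩ := Metric.cauchySeq_iff.1 h1 (ε / 3) (by linarith)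
    refine ⟨N, fun i hi j hj => ?_⟩
    have b1 := hx (s i)
    have b2 := hx (s j)
    have b3 := hN i hi j hj
    linarith [dist_triangle4 (F (s i) y) (F (s i) x) (F (s j) x) (F (s j) y),
      dist_comm (F (s j) x) (F (s j) y)]
  choose G hG using fun y => cauchySeq_tendsto_of_complete (hcau y)
  refine ⟨s, G, hs, Metric.tendstoLocallyUniformly_iff.2 fun ε hε y => ?_⟩
  refine ⟨_, he y (ε / 3) (by linarith), ?_⟩
  filter_upwards [Metric.tendsto_nhds.1 (hG y) (ε / 3) (by linarith)] with ν h1 x hx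
  have h2 : dist (G y) (G x) ≤ ε / 3 :=
    le_of_tendsto' ((hG y).dist (hG x)) fun i => (hx (s i)).le
  have h3 := hx (s ν)
  linarith [dist_triangle4 (G x) (G y) (F (s ν) y) (F (s ν) x), dist_comm (G x) (G y),
    dist_comm (G y) (F (s ν) y)]

theorem stMon : AllD fun _ _ _ _ D => StMon D := by
  intro n M _ _ _ _ _ D F hF hI
  have hloc : ∀ y, ∃ V ∈ 𝓝 y, ∃ L : ℝ, ∀ ν, ∀ x ∈ V,
      ‖F ν x‖ ≤ L ∧ ∀ x' ∈ V, ‖F ν x - F ν x'‖ ≤ L * ‖D.p x - D.p x'‖ := fun y => by
    obtain ⟨U, hU, B, hB, h⟩ := hI y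
    obtain ⟨V, hV, C, hC⟩ := stMV n M D y (interior U) isOpen_interior
      (mem_interior_iff_mem_nhds.2 hU)
    refine ⟨V, hV, C * √B.toReal, fun ν => hC (F ν) _ (fun x _ => hF ν x (mem_univ _))
      (Real.sqrt_nonneg _) ?_⟩
    rw [Real.sq_sqrt ENNReal.toReal_nonneg, ENNReal.ofReal_toReal hB]
    exact (lintegral_mono_set interior_subset).trans (h ν)
  obtain ⟨s, G, hs, hl⟩ := mon_arz (F := F) (fun y => by
    obtain ⟨V, hV, L, h⟩ := hloc y
    exact ⟨L, fun ν => (h ν y (mem_of_mem_nhds hV)).1⟩) (fun y ε hε => by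
    obtain ⟨V, hV, L, h⟩ := hloc y
    have h3 : ∀ᶠ x in 𝓝 y, L * ‖D.p y - D.p x‖ < ε := by
      have hp := D.loc.continuous
      have : Continuous fun x : M => L * ‖D.p y - D.p x‖ := by fun_prop
      exact this.continuousAt.eventually_lt continuousAt_const (by simpa using hε)
    filter_upwards [hV, h3] with x h1 h2 ν
    rw [dist_eq_norm]
    exact ((h ν y (mem_of_mem_nhds hV)).2 x h1).trans_lt h2)
  exact ⟨s, G, hs, D.mon_hol (fun ν => hF (s ν)) hl, hl⟩

end Crest.Agent.R271
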