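import Mathlib

/-! # Row 271, block H1: orthogonal projection in `L²` (owner helper12) -/

set_option autoImplicit false
set_option linter.unusedSectionVars false
set_option linter.unusedVariables false

open MeasureTheory Filter Topology Set
open scoped ENNReal ContDiff

noncomputable section

namespace Crest.Agent.R271

theorem proj_inner {M : Type} [MeasurableSpace M] {μ : Measure M} (x w : Lp ℂ 2 μ) {x' w' : M → ℂ}
    (hx : x =ᵐ[μ] x') (hw : w =ᵐ[μ] w') : inner ℂ w x = ∫ y, x' y * (starRingEnd ℂ) (w' y) ∂μ := by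
  rw [L2.inner_def]
  refine integral_congr_ae ?_
  filter_upwards [hx, hw] with y h1 h2
  rw [h1, h2, RCLike.inner_apply]

theorem proj_norm_sq {M : Type} [MeasurableSpace M] {μ : Measure M} (w : Lp ℂ 2 μ) {w' : M → ℂ}
    (hw : w =ᵐ[μ] w') : ‖w‖ ^ 2 = ∫ y, ‖w' y‖ ^ 2 ∂μ := by
  have h1 := proj_inner w w hw hw
  rw [inner_self_eq_norm_sq_to_K] at h1
  simp only [Complex.mul_conj'] at h1
  have h2 : ∫ y, ((‖w' y‖ : ℂ)) ^ 2 ∂μ = ((∫ y, ‖w' y‖ ^ 2 ∂μ : ℝ) : ℂ) := by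
    rw [← integral_complex_ofReal]; simp
  rw [h2] at h1
  exact Complex.ofReal_injective (by rw [← h1]; simp)

/-- In `Lp ℂ 2 μ` let `V` be the submodule of classes of elements of `S`, `v` the orthogonal projection of `u` on
`V.topologicalClosure`, `g = u - v`.  The bound `‖⟪w, u⟫‖ ≤ C ‖w‖` passes to the closure, so `‖v‖² = ⟪v, u⟫ ≤ C ‖v‖`. -/
theorem exists_proj {M : Type} [MeasurableSpace M] {μ : Measure M} {u : M → ℂ} (hu : MemLp u 2 μ)
    (S : Submodule ℂ (M → ℂ)) (hS : ∀ w ∈ S, MemLp w 2 μ) {B : ℝ} (hB : 0 ≤ B)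
    (h : ∀ w ∈ S, ‖∫ y, u y * (starRingEnd ℂ) (w y) ∂μ‖ ^ 2 ≤ B * ∫ y, ‖w y‖ ^ 2 ∂μ) :
    ∃ g : M → ℂ, MemLp g 2 μ ∧ (∀ w ∈ S, ∫ y, g y * (starRingEnd ℂ) (w y) ∂μ = 0) ∧
      ∫⁻ y, ENNReal.ofReal (‖u y - g y‖ ^ 2) ∂μ ≤ ENNReal.ofReal B := by
  let V : Submodule ℂ (Lp ℂ 2 μ) :=
    { carrier := {x | ∃ w ∈ S, x =ᵐ[μ] w}
      add_mem' := by
        rintro x y ⟨w, hw, hx⟩ ⟨w', hw', hy⟩
        exact ⟨w + w', S.add_mem hw hw', (Lp.coeFn_add x y).trans (hx.add hy)⟩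
      zero_mem' := ⟨0, S.zero_mem, Lp.coeFn_zero _ _ _⟩
      smul_mem' := by
        rintro c x ⟨w, hw, hx⟩
        exact ⟨c • w, S.smul_mem c hw, (Lp.coeFn_smul c x).trans (hx.const_smul c)⟩ }
  set U : Lp ℂ 2 μ := hu.toLp u with hU
  have hUu : U =ᵐ[μ] u := hu.coeFn_toLp
  let K := V.topologicalClosure
  set v : Lp ℂ 2 μ := K.starProjection U with hv
  have hvK : v ∈ K := K.starProjection_apply_mem U
  have horth : ∀ w ∈ K, inner ℂ w (U - v) = 0 := fun w hw =>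
    (Submodule.mem_orthogonal _ _).1 (K.sub_starProjection_mem_orthogonal U) w hw
  have hcl : IsClosed {w : Lp ℂ 2 μ | ‖inner ℂ w U‖ ^ 2 ≤ B * ‖w‖ ^ 2} :=
    isClosed_le (by fun_prop) (by fun_prop)
  have hb : ‖inner ℂ v U‖ ^ 2 ≤ B * ‖v‖ ^ 2 := by
    refine closure_minimal (s := (V : Set (Lp ℂ 2 μ))) ?_ hcl hvK
    rintro x ⟨w, hw, hx⟩
    show ‖inner ℂ x U‖ ^ 2 ≤ B * ‖x‖ ^ 2
    rw [proj_inner U x hUu hx, proj_norm_sq x hx]
    exact h w hw
  have hvv : ‖inner ℂ v U‖ = ‖v‖ ^ 2 := by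
    have := horth v hvK
    rw [inner_sub_right, sub_eq_zero, inner_self_eq_norm_sq_to_K] at this
    rw [this]; simp
  have hvB : ‖v‖ ^ 2 ≤ B := by
    rw [hvv] at hb
    rcases (sq_nonneg ‖v‖).eq_or_lt with h0 | h0
    · rw [← h0]; exact hB
    · exact le_of_mul_le_mul_right (by rw [← sq]; exact hb) h0
  refine ⟨fun y => u y - v y, hu.sub (Lp.memLp v), fun w hw => ?_, ?_⟩
  · rw [← proj_inner (x' := fun y => u y - v y) (U - v) ((hS w hw).toLp w) ((Lp.coeFn_sub U v).trans (hUu.sub EventuallyEq.rfl))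
      (hS w hw).coeFn_toLp]
    exact horth _ (V.le_topologicalClosure ⟨w, hw, (hS w hw).coeFn_toLp⟩)
  · simp only [sub_sub_cancel]
    rw [← ofReal_integral_eq_lintegral_ofReal ((Lp.memLp v).integrable_norm_pow two_ne_zero)
      (Eventually.of_forall fun y => sq_nonneg _), ← proj_norm_sq v EventuallyEq.rfl]
    exact ENNReal.ofReal_le_ofReal hvB

end Crest.Agent.R271
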