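import Crest.Agent.R271.Defs

/-! # Row 271, block H (regularity): convergence in `L²` -/

set_option autoImplicit false
set_option linter.unusedSectionVars false

open MeasureTheory Filter Topology Set
open scoped ENNReal ContDiff

noncomputable section

namespace Crest.Agent.R271.Reg

variable {α : Type} [MeasurableSpace α] {μ : Measure α} {F G : ℕ → α → ℂ} {f g : α → ℂ}

/-- convergence in `L²(μ)` -/
structure L2 (μ : Measure α) (F : ℕ → α → ℂ) (f : α → ℂ) : Prop where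
  mem : ∀ k, MemLp (F k) 2 μ
  lim : MemLp f 2 μ
  tend : Tendsto (fun k => ∫ x, ‖F k x - f x‖ ^ 2 ∂μ) atTop (𝓝 0)

theorem int_sq (hf : MemLp f 2 μ) : Integrable (fun x => ‖f x‖ ^ 2) μ :=
  (memLp_two_iff_integrable_sq_norm hf.1).1 hf

theorem int_mul (hf : MemLp f 2 μ) (hg : MemLp g 2 μ) : Integrable (fun x => f x * g x) μ :=
  hf.integrable_mul hg

theorem memLp_bdd_mul {b : α → ℂ} (hb : AEStronglyMeasurable b μ) {C : ℝ} (hC : ∀ᵐ x ∂μ, ‖b x‖ ≤ C)
    (hf : MemLp f 2 μ) : MemLp (fun x => b x * f x) 2 μ :=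
  hf.of_le_mul (c := C) (hb.mul hf.1) (hC.mono fun x hx => by
    rw [norm_mul]
    exact mul_le_mul_of_nonneg_right hx (norm_nonneg _))

theorem memLp_conj (hf : MemLp f 2 μ) : MemLp (fun x => (starRingEnd ℂ) (f x)) 2 μ :=
  hf.of_le (Complex.continuous_conj.comp_aestronglyMeasurable hf.1) (.of_forall fun x => by simp)

theorem int_add_le (hf : MemLp f 2 μ) (hg : MemLp g 2 μ) :
    ∫ x, ‖f x + g x‖ ^ 2 ∂μ ≤ 2 * ∫ x, ‖f x‖ ^ 2 ∂μ + 2 * ∫ x, ‖g x‖ ^ 2 ∂μ := by
  rw [← integral_const_mul, ← integral_const_mul,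
    ← integral_add ((int_sq hf).const_mul 2) ((int_sq hg).const_mul 2)]
  refine integral_mono_of_nonneg (.of_forall fun x => sq_nonneg _)
    (((int_sq hf).const_mul 2).add ((int_sq hg).const_mul 2)) (.of_forall fun x => ?_)
  nlinarith [sq_nonneg (‖f x‖ - ‖g x‖), norm_add_le (f x) (g x), norm_nonneg (f x + g x)]

theorem inner_toLp (hf : MemLp f 2 μ) (hg : MemLp g 2 μ) :
    inner ℂ (hf.toLp f) (hg.toLp g) = ∫ x, (starRingEnd ℂ) (f x) * g x ∂μ := by
  rw [L2.inner_def]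
  refine integral_congr_ae ?_
  filter_upwards [hf.coeFn_toLp, hg.coeFn_toLp] with x h1 h2
  rw [h1, h2, RCLike.inner_apply']

theorem dist_toLp (hf : MemLp f 2 μ) (hg : MemLp g 2 μ) :
    dist (hf.toLp f) (hg.toLp g) ^ 2 = ∫ x, ‖f x - g x‖ ^ 2 ∂μ := by
  have := inner_toLp (hf.sub hg) (hf.sub hg)
  rw [inner_self_eq_norm_sq_to_K, MemLp.toLp_sub hf hg, ← dist_eq_norm] at this
  simp only [Complex.conj_mul', Pi.sub_apply, ← Complex.ofReal_pow, integral_complex_ofReal,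
    Complex.coe_algebraMap] at this
  exact_mod_cast this

theorem L2.toLp (h : L2 μ F f) : Tendsto (fun k => (h.mem k).toLp (F k)) atTop (𝓝 (h.lim.toLp f)) := by
  have := h.tend.sqrt
  rw [Real.sqrt_zero] at this
  refine tendsto_iff_dist_tendsto_zero.2 (this.congr fun k => ?_)
  rw [← dist_toLp (h.mem k) h.lim, Real.sqrt_sq dist_nonneg]

theorem L2.const (hf : MemLp f 2 μ) : L2 μ (fun _ => f) f := ⟨fun _ => hf, hf, by simp⟩

theorem L2.add (h : L2 μ F f) (h' : L2 μ G g) : L2 μ (fun k x => F k x + G k x) fun x => f x + g x := by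
  refine ⟨fun k => (h.mem k).add (h'.mem k), h.lim.add h'.lim, ?_⟩
  have h3 := (h.tend.const_mul 2).add (h'.tend.const_mul 2)
  rw [mul_zero, add_zero] at h3
  refine squeeze_zero (fun n => integral_nonneg fun x => sq_nonneg _) (fun k => ?_) h3
  simpa only [add_sub_add_comm, Pi.sub_apply] using int_add_le ((h.mem k).sub h.lim) ((h'.mem k).sub h'.lim)

theorem L2.sum {ι : Type} {s : Finset ι} {F : ι → ℕ → α → ℂ} {f : ι → α → ℂ} (h : ∀ i ∈ s, L2 μ (F i) (f i)) :
    L2 μ (fun k x => ∑ i ∈ s, F i k x) fun x => ∑ i ∈ s, f i x := by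
  classical
  induction s using Finset.induction_on with
  | empty => simpa using L2.const (μ := μ) (f := fun _ => 0) MemLp.zero'
  | insert i s hi ih =>
    simpa only [Finset.sum_insert hi] using
      (h i (Finset.mem_insert_self _ _)).add (ih fun j hj => h j (Finset.mem_insert_of_mem hj))

theorem L2.bdd_mul (h : L2 μ F f) {b : α → ℂ} (hb : AEStronglyMeasurable b μ) {C : ℝ}
    (hC : ∀ᵐ x ∂μ, ‖b x‖ ≤ C) : L2 μ (fun k x => b x * F k x) fun x => b x * f x := by
  refine ⟨fun k => memLp_bdd_mul hb hC (h.mem k), memLp_bdd_mul hb hC h.lim, ?_⟩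
  have h3 := h.tend.const_mul (C ^ 2)
  rw [mul_zero] at h3
  refine squeeze_zero (fun n => integral_nonneg fun x => sq_nonneg _) (fun k => ?_) h3
  rw [← integral_const_mul]
  refine integral_mono_of_nonneg (.of_forall fun x => sq_nonneg _)
    ((int_sq ((h.mem k).sub h.lim)).const_mul _) (hC.mono fun x hx => ?_)
  simp only [← mul_sub, norm_mul, mul_pow]
  gcongr

theorem L2.conj (h : L2 μ F f) :
    L2 μ (fun k x => (starRingEnd ℂ) (F k x)) fun x => (starRingEnd ℂ) (f x) :=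
  ⟨fun k => memLp_conj (h.mem k), memLp_conj h.lim, by simpa only [← map_sub, Complex.norm_conj] using h.tend⟩

theorem L2.congr (h : L2 μ F f) (hF : ∀ k, F k =ᵐ[μ] G k) (hf : f =ᵐ[μ] g) : L2 μ G g := by
  refine ⟨fun k => (h.mem k).ae_eq (hF k), h.lim.ae_eq hf, h.tend.congr fun k => integral_congr_ae ?_⟩
  filter_upwards [hF k, hf] with x h1 h2
  rw [h1, h2]

theorem L2.mono (h : L2 μ F f) {ν : Measure α} (hν : ν ≤ μ) : L2 ν F f :=
  ⟨fun k => (h.mem k).mono_measure hν, h.lim.mono_measure hν,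
    squeeze_zero (fun _ => integral_nonneg fun _ => sq_nonneg _) (fun k => integral_mono_measure hν
      (.of_forall fun _ => sq_nonneg _) (int_sq ((h.mem k).sub h.lim))) h.tend⟩

theorem L2.indicator {U : Set α} (hU : MeasurableSet U) (h : L2 (μ.restrict U) F f) :
    L2 μ (fun k => U.indicator (F k)) (U.indicator f) := by
  refine ⟨fun k => (memLp_indicator_iff_restrict hU).2 (h.mem k), (memLp_indicator_iff_restrict hU).2 h.lim,
    h.tend.congr fun k => ?_⟩
  rw [← integral_indicator hU]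
  refine integral_congr_ae (.of_forall fun x => ?_)
  by_cases hx : x ∈ U <;> simp [hx]

theorem L2.comp {β : Type} [MeasurableSpace β] {ν : Measure β} {φ : β → α} (hφ : AEMeasurable φ ν)
    (h : L2 (ν.map φ) F f) : L2 ν (fun k x => F k (φ x)) fun x => f (φ x) :=
  ⟨fun k => (h.mem k).comp_of_map hφ, h.lim.comp_of_map hφ,
    h.tend.congr fun k => integral_map hφ (int_sq ((h.mem k).sub h.lim)).1⟩

/-- `2 |a b| ≤ t |a|² + |b|²/t`, or continuity of the inner product of `Lp ℂ 2 μ` -/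
theorem L2.integral_mul (h : L2 μ F f) (h' : L2 μ G g) :
    Tendsto (fun k => ∫ x, F k x * G k x ∂μ) atTop (𝓝 (∫ x, f x * g x ∂μ)) := by
  have := h.conj.toLp.inner (𝕜 := ℂ) h'.toLp
  rw [inner_toLp] at this
  simpa only [inner_toLp, RingHomInvPair.comp_apply_eq₂, RingHomCompTriple.comp_apply, RingHom.id_apply]
    using this

theorem L2.cauchy (h : L2 μ F f) (k l : ℕ) :
    ∫ x, ‖F k x - F l x‖ ^ 2 ∂μ ≤ 2 * ∫ x, ‖F k x - f x‖ ^ 2 ∂μ + 2 * ∫ x, ‖F l x - f x‖ ^ 2 ∂μ := by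
  have := int_add_le ((h.mem k).sub h.lim) (h.lim.sub (h.mem l))
  simpa only [Pi.sub_apply, sub_add_sub_cancel, norm_sub_rev (f _)] using this

/-- completeness of `Lp ℂ 2 μ` -/
theorem L2.of_cauchy (hF : ∀ k, MemLp (F k) 2 μ) {ε : ℕ → ℝ} (hε : Tendsto ε atTop (𝓝 0))
    (h : ∀ k l, ∫ x, ‖F k x - F l x‖ ^ 2 ∂μ ≤ ε k + ε l) : ∃ f, L2 μ F f := by
  have hc : CauchySeq fun k => (hF k).toLp (F k) := by
    refine Metric.cauchySeq_iff.2 fun δ hδ => ?_
    obtain ⟨N, hN⟩ := eventually_atTop.1 (hε.eventually (gt_mem_nhds (show 0 < δ ^ 2 / 2 by positivity)))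
    refine ⟨N, fun k hk l hl => lt_of_pow_lt_pow_left₀ 2 hδ.le ?_⟩
    rw [dist_toLp]
    linarith [h k l, hN k hk, hN l hl]
  obtain ⟨u, hu⟩ := cauchySeq_tendsto_of_complete hc
  refine ⟨u, hF, Lp.memLp u, ?_⟩
  have := (tendsto_iff_dist_tendsto_zero.1 hu).pow 2
  rw [zero_pow two_ne_zero] at this
  refine this.congr fun k => ?_
  rw [← dist_toLp (hF k) (Lp.memLp u), Lp.toLp_coeFn]

/-- Fatou, or an a.e. convergent subsequence (`TendstoInMeasure.exists_seq_tendsto_ae`) -/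
theorem L2.ae_eq (h : L2 μ F f) (hg : ∀ᵐ x ∂μ, Tendsto (fun k => F k x) atTop (𝓝 (g x))) : f =ᵐ[μ] g := by
  have h1 := tendstoInMeasure_of_tendsto_Lp h.toLp
  obtain ⟨s, hs, h2⟩ := h1.exists_seq_tendsto_ae
  filter_upwards [hg, h2, h.lim.coeFn_toLp, ae_all_iff.2 fun k => (h.mem k).coeFn_toLp] with x a1 a2 a3 a4
  simp only [a3, a4] at a2
  exact tendsto_nhds_unique a2 (a1.comp hs.tendsto_atTop)

end Crest.Agent.R271.Reg
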