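import Crest.Agent.R271.H.Meas
import Crest.Agent.R271.H.RegL2

/-! # Row 271, block H (regularity): measure theory and integration by parts on `M`
(use `H/Meas.lean` of helper12) -/

set_option autoImplicit false
set_option linter.unusedSectionVars false

open MeasureTheory Filter Topology Set Metric
open scoped ENNReal ContDiff

noncomputable section

namespace Crest.Agent.R271.Reg

variable {n : ℕ} {M : Type} [TopologicalSpace M] [T2Space M] [SecondCountableTopology M]
  [MeasurableSpace M] [BorelSpace M] {D : Dom n M}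

/-- basis vectors -/
abbrev ee (j : Fin n) : E n := Pi.single j 1

variable (D) in
/-- locally `L²` -/
def Loc2 (g : M → ℂ) : Prop := ∀ K, IsCompact K → MemLp g 2 (D.μ.restrict K)

variable (D) in
/-- test functions -/
def Tst (χ : M → ℂ) : Prop := D.Sm χ ∧ HasCompactSupport χ

theorem fin_cpt {K : Set M} (hK : IsCompact K) : D.μ K < ⊤ :=
  have := D.finCpt
  hK.measure_lt_top

theorem memLp_cont {f : M → ℂ} (hf : Continuous f) {K : Set M} (hK : IsCompact K) :
    MemLp f 2 (D.μ.restrict K) := by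
  have : IsFiniteMeasure (D.μ.restrict K) := isFiniteMeasure_restrict.2 (fin_cpt hK).ne
  obtain ⟨C, hC⟩ := hK.exists_bound_of_continuousOn hf.continuousOn
  exact MemLp.of_bound hf.aestronglyMeasurable C ((ae_restrict_mem hK.measurableSet).mono hC)

theorem memLp_cs {f : M → ℂ} (hf : Continuous f) (hs : HasCompactSupport f) : MemLp f 2 D.μ :=
  have := D.finCpt
  hf.memLp_of_hasCompactSupport hs

theorem bdd_cont {f : M → ℂ} (hf : Continuous f) {K U : Set M} (hK : IsCompact K) (hU : MeasurableSet U)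
    (hUK : U ⊆ K) : ∃ C, ∀ᵐ x ∂D.μ.restrict U, ‖f x‖ ≤ C := by
  obtain ⟨C, hC⟩ := hK.exists_bound_of_continuousOn hf.continuousOn
  exact ⟨C, (ae_restrict_mem hU).mono fun x hx => hC x (hUK hx)⟩

theorem Loc2.mul {g b : M → ℂ} (hg : Loc2 D g) (hb : Continuous b) : Loc2 D fun y => g y * b y := fun K hK => by
  obtain ⟨C, hC⟩ := bdd_cont (D := D) hb hK hK.measurableSet Subset.rfl
  simpa only [mul_comm] using memLp_bdd_mul hb.aestronglyMeasurable hC (hg K hK)

theorem Loc2.int_mul {g ψ : M → ℂ} (hg : Loc2 D g) (hψ : Continuous ψ) (hs : HasCompactSupport ψ) :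
    Integrable (fun y => g y * ψ y) D.μ :=
  IntegrableOn.integrable_of_forall_notMem_eq_zero (s := tsupport ψ)
    (Reg.int_mul (hg _ hs) (memLp_cont hψ hs)) fun x hx => by rw [image_eq_zero_of_notMem_tsupport hx, mul_zero]

theorem Tst.db {χ : M → ℂ} (h : Tst D χ) (ξ : E n) : Tst D fun y => D.db χ y ξ :=
  ⟨h.1.db ξ, HasCompactSupport.intro h.2 fun y hy => by simp [Dom.db, Dom.d_zero_of_notMem hy]⟩

theorem Tst.dz {χ : M → ℂ} (h : Tst D χ) (ξ : E n) : Tst D fun y => D.dz χ y ξ :=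
  ⟨h.1.dz ξ, HasCompactSupport.intro h.2 fun y hy => by simp [Dom.dz, Dom.d_zero_of_notMem hy]⟩

theorem Tst.mul {χ f : M → ℂ} (h : Tst D χ) (hf : D.Sm f) : Tst D fun y => f y * χ y := ⟨hf.mul h.1, h.2.mul_left⟩

theorem db_zero {χ : M → ℂ} {y : M} (h : y ∉ tsupport χ) (ξ : E n) : D.db χ y ξ = 0 := by
  simp [Dom.db, Dom.d_zero_of_notMem h]

theorem dz_zero {χ : M → ℂ} {y : M} (h : y ∉ tsupport χ) (ξ : E n) : D.dz χ y ξ = 0 := by
  simp [Dom.dz, Dom.d_zero_of_notMem h]

theorem db_sum {ι : Type} {s : Finset ι} {f : ι → M → ℂ} (h : ∀ i ∈ s, D.Sm (f i)) (y : M) (ξ : E n) :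
    D.db (fun x => ∑ i ∈ s, f i x) y ξ = ∑ i ∈ s, D.db (f i) y ξ := by
  simp only [Dom.db, Dom.d_sum fun i hi => (h i hi).dif y, sum_apply, Finset.mul_sum,
    ← Finset.sum_add_distrib, Finset.sum_div]

theorem db_basis (u : M → ℂ) (y : M) (ξ : E n) :
    D.db u y ξ = ∑ j, (starRingEnd ℂ) (ξ j) * D.db u y (ee j) := by
  have e : ∀ (c : ℂ) (η : E n), D.d u y (c • η) = c.re * D.d u y η + c.im * D.d u y (Complex.I • η) :=
    fun c η => by
      have : c • η = c.re • η + c.im • Complex.I • η := by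
        conv_lhs => rw [← Complex.re_add_im c]
        rw [add_smul, mul_smul]
        rfl
      rw [this, map_add, map_smul, map_smul]
      simp only [Complex.real_smul]
  have e1 : ξ = ∑ j, ξ j • ee j := by
    ext i
    simp [ee, Pi.single_apply]
  conv_lhs => rw [e1]
  simp only [Dom.db, Finset.smul_sum, map_sum, Finset.mul_sum, ← Finset.sum_add_distrib, Finset.sum_div]
  refine Finset.sum_congr rfl fun j _ => ?_
  rw [smul_smul, e (ξ j), e (Complex.I * ξ j)]
  conv_rhs => rw [← Complex.re_add_im (ξ j)]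
  simp only [Complex.mul_re, Complex.mul_im, Complex.I_re, Complex.I_im, map_add, map_mul, Complex.conj_ofReal,
    Complex.conj_I]
  push_cast
  linear_combination ((ξ j).im * D.d u y (Complex.I • ee j) / 2) * Complex.I_mul_I

theorem db_dz_comm {u : M → ℂ} (hu : D.Sm u) (y : M) (ξ η : E n) :
    D.db (fun x => D.dz u x ξ) y η = D.dz (fun x => D.db u x η) y ξ := by
  have k1 : ∀ ξ η, D.d (fun x => D.dz u x ξ) y η = (D.d (fun x => D.d u x ξ) y η -
      Complex.I * D.d (fun x => D.d u x (Complex.I • ξ)) y η) / 2 := fun ξ η => by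
    have h1 := hu.d_apply ξ
    have h2 := (Dom.sm_const Complex.I).mul (hu.d_apply (Complex.I • ξ))
    simp only [Dom.dz, div_eq_mul_inv, Dom.d_mul ((h1.sub h2).dif y) (Dom.dif_const _),
      Dom.d_sub (h1.dif y) (h2.dif y), Dom.d_mul (Dom.dif_const _) ((hu.d_apply _).dif y), Dom.d_const,
      sub_apply, zero_apply, mul_zero, zero_mul, zero_add, add_zero]
  have k2 : ∀ ξ η, D.d (fun x => D.db u x ξ) y η = (D.d (fun x => D.d u x ξ) y η +
      Complex.I * D.d (fun x => D.d u x (Complex.I • ξ)) y η) / 2 := fun ξ η => by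
    have h1 := hu.d_apply ξ
    have h2 := (Dom.sm_const Complex.I).mul (hu.d_apply (Complex.I • ξ))
    simp only [Dom.db, div_eq_mul_inv, Dom.d_mul ((h1.add h2).dif y) (Dom.dif_const _),
      Dom.d_add (h1.dif y) (h2.dif y), Dom.d_mul (Dom.dif_const _) ((hu.d_apply _).dif y), Dom.d_const,
      add_apply, zero_apply, mul_zero, zero_mul, zero_add, add_zero]
  rw [Dom.db, Dom.dz, k1, k1, k2, k2]
  simp only [Dom.dd_symm (hu.cd2 y) ξ, Dom.dd_symm (hu.cd2 y) (Complex.I • ξ)]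
  ring

theorem ibp_db {f ψ : M → ℂ} (hf : D.Sm f) (hψ : Tst D ψ) (ξ : E n) :
    ∫ y, f y * D.db ψ y ξ ∂D.μ = -∫ y, D.db f y ξ * ψ y ∂D.μ := by
  have h := Dom.integral_db (hψ.mul hf).1 (hψ.mul hf).2 ξ
  simp only [Dom.db_mul (hf.dif _) (hψ.1.dif _)] at h
  rwa [integral_add (Dom.integrable_of_cont ((hψ.db ξ).mul hf).1.continuous ((hψ.db ξ).mul hf).2)
    (Dom.integrable_of_cont (hψ.mul (hf.db ξ)).1.continuous (hψ.mul (hf.db ξ)).2), add_eq_zero_iff_eq_neg] at h

theorem ibp_dz {f ψ : M → ℂ} (hf : D.Sm f) (hψ : Tst D ψ) (ξ : E n) :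
    ∫ y, f y * D.dz ψ y ξ ∂D.μ = -∫ y, D.dz f y ξ * ψ y ∂D.μ := by
  have h := Dom.integral_dz (hψ.mul hf).1 (hψ.mul hf).2 ξ
  simp only [Dom.dz_mul (hf.dif _) (hψ.1.dif _)] at h
  rwa [integral_add (Dom.integrable_of_cont ((hψ.dz ξ).mul hf).1.continuous ((hψ.dz ξ).mul hf).2)
    (Dom.integrable_of_cont (hψ.mul (hf.dz ξ)).1.continuous (hψ.mul (hf.dz ξ)).2), add_eq_zero_iff_eq_neg] at h

variable (D) in
theorem exists_bump {y : M} {U : Set M} (hU : U ∈ 𝓝 y) : ∃ β : M → ℝ, D.Sm β ∧ HasCompactSupport β ∧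
    tsupport β ⊆ U ∧ ∀ᶠ x in 𝓝 y, β x = 1 :=
  let ⟨θ, h1, h2, h3, h4, _⟩ := D.exists_bump y hU
  ⟨θ, h1, h2, h3, h4⟩

variable (D) in
/-- `θ i = β i ∏_{l < i} (1 - β l)` -/
theorem exists_part {K : Set M} (hK : IsCompact K) {U : M → Set M} (hU : ∀ y, U y ∈ 𝓝 y) :
    ∃ (N : ℕ) (c : Fin N → M) (θ : Fin N → M → ℂ), (∀ i, Tst D (θ i) ∧ tsupport (θ i) ⊆ U (c i)) ∧
      ∀ x ∈ K, ∑ i, θ i x = 1 := by
  choose β h1 h2 h3 h4 using fun y => exists_bump D (hU y)
  obtain ⟨t, -, ht⟩ := hK.elim_nhds_subcover (fun y => {x | β y x = 1}) fun y _ => h4 y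
  have key : ∀ l : List M, ∃ (N : ℕ) (c : Fin N → M) (θ : Fin N → M → ℂ),
      (∀ i, Tst D (θ i) ∧ tsupport (θ i) ⊆ U (c i)) ∧ ∀ x, (∃ y ∈ l, β y x = 1) → ∑ i, θ i x = 1 := fun l => by
    induction l with
    | nil => exact ⟨0, Fin.elim0, Fin.elim0, fun i => i.elim0, fun x hx => by simp at hx⟩
    | cons y l ih =>
      obtain ⟨N, c, θ, a1, a2⟩ := ih
      have hb := (h1 y).ofReal
      refine ⟨N + 1, Fin.cons y c, Fin.cons (fun x => β y x) fun i x => (1 - β y x) * θ i x, fun i => ?_,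
        fun x hx => ?_⟩
      · refine Fin.cases ?_ (fun i => ?_) i
        · have k : tsupport (fun x => (β y x : ℂ)) ⊆ tsupport (β y) := closure_mono fun x hx k => hx (by simp [k])
          exact ⟨⟨hb, (h2 y).of_isClosed_subset (isClosed_tsupport _) k⟩, k.trans (h3 y)⟩
        · exact ⟨(a1 i).1.mul ((Dom.sm_const 1).sub hb), (tsupport_mul_subset_right).trans (a1 i).2⟩
      · simp only [Fin.sum_univ_succ, Fin.cons_zero, Fin.cons_succ, ← Finset.mul_sum]
        obtain ⟨y', hy', e⟩ := hx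
        rcases List.mem_cons.1 hy' with rfl | hy'
        · simp [e]
        · rw [a2 x ⟨y', hy', e⟩]
          ring
  obtain ⟨N, c, θ, a1, a2⟩ := key t.toList
  refine ⟨N, c, θ, a1, fun x hx => a2 x ?_⟩
  simpa using ht hx

theorem eqOn_of_ae {f g : M → ℂ} {U : Set M} (hU : IsOpen U) (hf : ContinuousOn f U) (hg : ContinuousOn g U)
    (h : f =ᵐ[D.μ.restrict U] g) : EqOn f g U :=
  have := D.openPos
  Measure.eqOn_open_of_ae_eq h hU hf hg

theorem map_symm {e : OpenPartialHomeomorph M (E n)} (he : D.IsCh e) {B : Set (E n)} (hB : MeasurableSet B)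
    (hBe : B ⊆ e.target) :
    (volume.restrict B).map e.symm = D.μ.restrict (e.source ∩ D.p ⁻¹' B) := by
  have hm := (e.continuousOn_symm.mono hBe).aemeasurable (μ := volume) hB
  have hU : MeasurableSet (e.source ∩ D.p ⁻¹' B) := e.open_source.measurableSet.inter (D.p_cont.measurable hB)
  have e1 : D.p '' (e.source ∩ D.p ⁻¹' B) = B := by
    refine Subset.antisymm (by rintro _ ⟨x, hx, rfl⟩; exact hx.2) fun x hx => ?_
    exact ⟨e.symm x, ⟨e.map_target (hBe hx), by simpa [he.p_symm (hBe hx)] using hx⟩, he.p_symm (hBe hx)⟩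
  ext s hs
  rw [← lintegral_indicator_one hs, ← lintegral_indicator_one hs,
    lintegral_map' (measurable_one.indicator hs).aemeasurable hm, he.lintegral_eq hU inter_subset_left, e1]

theorem map_p {e : OpenPartialHomeomorph M (E n)} (he : D.IsCh e) {B : Set (E n)} (hB : MeasurableSet B)
    (hBe : B ⊆ e.target) :
    (D.μ.restrict (e.source ∩ D.p ⁻¹' B)).map D.p = volume.restrict B := by
  rw [← map_symm he hB hBe, AEMeasurable.map_map_of_aemeasurable D.p_cont.aemeasurable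
    ((e.continuousOn_symm.mono hBe).aemeasurable hB), Measure.map_congr (g := id), Measure.map_id]
  exact (ae_restrict_mem hB).mono fun z hz => he.p_symm (hBe hz)

end Crest.Agent.R271.Reg
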