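import Mathlib

/-! # Row 271, block H1: convex weights (owner helper12) -/

set_option autoImplicit false
set_option linter.unusedSectionVars false
set_option linter.unusedVariables false

open MeasureTheory Filter Topology Set
open scoped ENNReal ContDiff

noncomputable section

namespace Crest.Agent.R271

/-- the derivative of the weight -/
def wtG (a : ℕ → ℝ) (c t : ℝ) : ℝ := ∑' k : ℕ, a k * Real.smoothTransition (t - c - k)

theorem wtG_eq (a : ℕ → ℝ) (c : ℝ) (N : ℕ) {t : ℝ} (ht : t ≤ c + N) :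
    wtG a c t = ∑ k ∈ Finset.range N, a k * Real.smoothTransition (t - c - k) := by
  unfold wtG
  refine tsum_eq_sum fun k hk => ?_
  have hk' : (N : ℝ) ≤ k := by exact_mod_cast (by simpa using hk : N ≤ k)
  rw [Real.smoothTransition.zero_of_nonpos (by linarith), mul_zero]

theorem wtG_contDiff (a : ℕ → ℝ) (c : ℝ) : ContDiff ℝ ∞ (wtG a c) := by
  rw [contDiff_iff_contDiffAt]
  intro t
  obtain ⟨N, hN⟩ := exists_nat_gt (t - c)
  have h1 : ContDiff ℝ ∞ fun s : ℝ => ∑ k ∈ Finset.range N, a k * Real.smoothTransition (s - c - k) := by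
    refine ContDiff.sum fun k _ => contDiff_const.mul ?_
    exact Real.smoothTransition.contDiff.comp ((contDiff_id.sub contDiff_const).sub contDiff_const)
  refine h1.contDiffAt.congr_of_eventuallyEq ?_
  filter_upwards [Iio_mem_nhds (show t < c + N by linarith)] with s hs
  exact wtG_eq a c N (le_of_lt hs)

theorem wtG_mono {a : ℕ → ℝ} (ha : ∀ k, 0 ≤ a k) (c : ℝ) : Monotone (wtG a c) := by
  intro s t hst
  obtain ⟨N, hN⟩ := exists_nat_gt (t - c)
  rw [wtG_eq a c N (t := s) (by linarith), wtG_eq a c N (t := t) (by linarith)]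
  exact Finset.sum_le_sum fun k _ =>
    mul_le_mul_of_nonneg_left (Real.smoothTransition.monotone (by linarith)) (ha k)

theorem wtG_zero (a : ℕ → ℝ) (c : ℝ) {t : ℝ} (ht : t ≤ c) : wtG a c t = 0 := by
  rw [wtG_eq a c 0 (by simpa using ht)]; simp

theorem wtG_nonneg {a : ℕ → ℝ} (ha : ∀ k, 0 ≤ a k) (c t : ℝ) : 0 ≤ wtG a c t :=
  tsum_nonneg fun k => mul_nonneg (ha k) (Real.smoothTransition.nonneg _)

theorem wtG_ge {a : ℕ → ℝ} (ha : ∀ k, 0 ≤ a k) (c : ℝ) (k : ℕ) {t : ℝ} (ht : c + k + 1 ≤ t) :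
    a k ≤ wtG a c t := by
  obtain ⟨N, hN⟩ := exists_nat_gt (t - c)
  have hkN : k < N := by
    have : (k : ℝ) < N := by linarith
    exact_mod_cast this
  rw [wtG_eq a c N (t := t) (by linarith)]
  calc a k = a k * Real.smoothTransition (t - c - k) := by
        rw [Real.smoothTransition.one_of_one_le (by linarith), mul_one]
    _ ≤ _ := Finset.single_le_sum (f := fun k : ℕ => a k * Real.smoothTransition (t - c - k))
        (fun j _ => mul_nonneg (ha j) (Real.smoothTransition.nonneg _)) (Finset.mem_range.2 hkN)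

/-- `g t = ∑ k, a k * smoothTransition (t - c - k)` (near `t₀` a finite sum over `range N`), `a k ≥ 0` a bound of `m` on
`{ρ ≤ c + k + 3}`; `ψ t = ∫ s in c..t, g s`, `deriv ψ = g` is monotone, `ψ t ≥ g (t - 1)` for `t ≥ c + 1`. -/
theorem exists_weight {M : Type} [TopologicalSpace M] {ρ m : M → ℝ} (hm : Continuous m)
    (hρ : ∀ r, IsCompact {y | ρ y ≤ r}) (c : ℝ) :
    ∃ ψ : ℝ → ℝ, ContDiff ℝ ∞ ψ ∧ (∀ t, 0 ≤ ψ t) ∧ (∀ t, 0 ≤ deriv ψ t) ∧ (∀ t, 0 ≤ deriv (deriv ψ) t) ∧
      (∀ t ≤ c, ψ t = 0) ∧ ∀ y, c + 2 ≤ ρ y → m y ≤ ψ (ρ y) := by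
  have hb : ∀ k : ℕ, ∃ A : ℝ, 0 ≤ A ∧ ∀ y, ρ y ≤ c + k + 3 → m y ≤ A := by
    intro k
    obtain ⟨A, hA⟩ := (hρ (c + k + 3)).bddAbove_image hm.continuousOn
    exact ⟨max A 0, le_max_right _ _, fun y hy => (hA ⟨y, hy, rfl⟩).trans (le_max_left _ _)⟩
  choose a ha0 ha using hb
  have hg := wtG_contDiff a c
  have hgc : Continuous (wtG a c) := hg.continuous
  have hd : ∀ t, HasDerivAt (fun t => ∫ s in c..t, wtG a c s) (wtG a c t) t := fun t =>
    intervalIntegral.integral_hasDerivAt_right (hgc.intervalIntegrable _ _)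
      (hgc.stronglyMeasurableAtFilter _ _) hgc.continuousAt
  have hde : deriv (fun t => ∫ s in c..t, wtG a c s) = wtG a c := funext fun t => (hd t).deriv
  have hz : ∀ t ≤ c, ∫ s in c..t, wtG a c s = 0 := by
    intro t ht
    rw [intervalIntegral.integral_congr (g := fun _ => (0 : ℝ))]
    · simp
    · intro s hs
      rw [uIcc_of_ge ht] at hs
      exact wtG_zero a c hs.2
  refine ⟨fun t => ∫ s in c..t, wtG a c s, ?_, ?_, ?_, ?_, hz, ?_⟩
  · rw [contDiff_infty_iff_deriv, hde]
    exact ⟨fun t => (hd t).differentiableAt, hg⟩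
  · intro t
    rcases le_total t c with ht | ht
    · exact (hz t ht).ge
    · exact intervalIntegral.integral_nonneg ht fun s _ => wtG_nonneg ha0 c s
  · intro t; rw [hde]; exact wtG_nonneg ha0 c t
  · intro t; rw [hde]; exact (wtG_mono ha0 c).deriv_nonneg
  · intro y hy
    set t := ρ y with ht
    have h0 : 0 ≤ t - c - 2 := by linarith
    have h1 := Nat.floor_le h0
    have h2 := Nat.lt_floor_add_one (t - c - 2)
    set k := ⌊t - c - 2⌋₊
    have h3 : m y ≤ a k := ha k y (by linarith)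
    have h4 : ∫ s in c..t, wtG a c s = (∫ s in c..(t - 1), wtG a c s) + ∫ s in (t - 1)..t, wtG a c s :=
      (intervalIntegral.integral_add_adjacent_intervals (hgc.intervalIntegrable _ _)
        (hgc.intervalIntegrable _ _)).symm
    have h5 : 0 ≤ ∫ s in c..(t - 1), wtG a c s :=
      intervalIntegral.integral_nonneg (by linarith) fun s _ => wtG_nonneg ha0 c s
    have h6 : ∫ s in (t - 1)..t, a k ≤ ∫ s in (t - 1)..t, wtG a c s :=
      intervalIntegral.integral_mono_on (by linarith) (continuous_const.intervalIntegrable _ _)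
        (hgc.intervalIntegrable _ _) fun s hs => wtG_ge ha0 c k (by linarith [hs.1])
    simp only [intervalIntegral.integral_const, smul_eq_mul] at h6
    show m y ≤ ∫ s in c..t, wtG a c s
    rw [h4]; linarith

end Crest.Agent.R271
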